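import Mathlib

/-!
# P207, block CROSS: vanishing of real analytic families of functions
-/

namespace Vale.Agent.P207.H316

open Filter

/-- a solution of `y' = c y` which vanishes at one point is zero -/
theorem eq_zero_of_hasDerivAt_mul {y : ℝ → ℝ} {c : ℝ} (h : ∀ s, HasDerivAt y (c * y s) s) {t : ℝ}
    (ht : y t = 0) (s : ℝ) : y s = 0 := by
  have h1 : ∀ s, HasDerivAt (fun s => Real.exp (-(c * s)) * y s) 0 s := by
    intro s
    have h2 : HasDerivAt (fun s : ℝ => Real.exp (-(c * s))) (Real.exp (-(c * s)) * (-(c * 1))) s :=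
      (((hasDerivAt_id' s).const_mul c).neg).exp
    refine (h2.mul (h s)).congr_deriv ?_
    ring
  have h3 := is_const_of_deriv_eq_zero (fun s => (h1 s).differentiableAt)
    (fun s => (h1 s).deriv) s t
  simp only [ht, mul_zero] at h3
  rcases mul_eq_zero.1 h3 with h4 | h4
  · exact absurd h4 (Real.exp_pos _).ne'
  · exact h4

/-- uniqueness for the system of the form along the flow -/
theorem sys_zero {κ k : ℝ} (hk : 0 < k) (hκ : κ = k ^ 2) {δ ε σ : ℝ → ℝ}
    (hδ : ∀ s, HasDerivAt δ (-(2 * ε s)) s) (hε : ∀ s, HasDerivAt ε (-(κ * δ s + σ s)) s)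
    (hσ : ∀ s, HasDerivAt σ (-(2 * κ * ε s)) s) {t : ℝ} (h1 : δ t = 0) (h2 : ε t = 0)
    (h3 : σ t = 0) (s : ℝ) : δ s = 0 ∧ ε s = 0 ∧ σ s = 0 := by
  have a1 : κ * δ s + σ s + 2 * k * ε s = 0 := by
    refine eq_zero_of_hasDerivAt_mul (y := fun s => κ * δ s + σ s + 2 * k * ε s)
      (c := -(2 * k)) (t := t) (fun s => ?_) ?_ s
    · refine ((((hδ s).const_mul κ).add (hσ s)).add ((hε s).const_mul (2 * k))).congr_deriv ?_
      rw [hκ]; ring
    · rw [h1, h2, h3]; ring
  have a2 : κ * δ s + σ s - 2 * k * ε s = 0 := by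
    refine eq_zero_of_hasDerivAt_mul (y := fun s => κ * δ s + σ s - 2 * k * ε s)
      (c := 2 * k) (t := t) (fun s => ?_) ?_ s
    · refine ((((hδ s).const_mul κ).add (hσ s)).sub ((hε s).const_mul (2 * k))).congr_deriv ?_
      rw [hκ]; ring
    · rw [h1, h2, h3]; ring
  have a3 : κ * δ s - σ s = 0 := by
    refine eq_zero_of_hasDerivAt_mul (y := fun s => κ * δ s - σ s)
      (c := 0) (t := t) (fun s => ?_) ?_ s
    · refine (((hδ s).const_mul κ).sub (hσ s)).congr_deriv ?_
      ring
    · rw [h1, h3]; ring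
  have hκ0 : 0 < κ := by rw [hκ]; positivity
  have e1 : κ * δ s = 0 := by linarith
  have e2 : k * ε s = 0 := by linarith
  refine ⟨(mul_eq_zero.1 e1).resolve_left hκ0.ne', (mul_eq_zero.1 e2).resolve_left hk.ne', ?_⟩
  linarith

/-- Taylor's bound on the right -/
theorem taylor_right {φ : ℕ → ℝ → ℝ} (hd : ∀ k s, HasDerivAt (φ k) (φ (k + 1) s) s)
    (h0 : ∀ k, φ k 0 = 0) (K : ℕ) : ∀ (j : ℕ) (B : ℝ), (∀ s, 0 ≤ s → φ (j + K) s ≤ B) →
      ∀ s, 0 ≤ s → φ j s ≤ B * s ^ K / (K.factorial : ℝ) := by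
  induction K with
  | zero =>
    intro j B hB s hs
    simpa using hB s hs
  | succ K ih =>
    intro j B hB s hs
    have hB' : ∀ s, 0 ≤ s → φ (j + 1) s ≤ B * s ^ K / (K.factorial : ℝ) := by
      refine ih (j + 1) B fun s hs => ?_
      have e : j + 1 + K = j + (K + 1) := by ring
      rw [e]
      exact hB s hs
    set F : ℝ → ℝ := fun s => B * s ^ (K + 1) / ((K + 1).factorial : ℝ) - φ j s with hF
    have hFd : ∀ s, HasDerivAt F (B * s ^ K / (K.factorial : ℝ) - φ (j + 1) s) s := by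
      intro s
      have h1 : HasDerivAt (fun s : ℝ => B * s ^ (K + 1) / ((K + 1).factorial : ℝ))
          (B * (((K + 1 : ℕ) : ℝ) * s ^ (K + 1 - 1)) / ((K + 1).factorial : ℝ)) s :=
        ((hasDerivAt_pow (K + 1) s).const_mul B).div_const _
      refine (h1.sub (hd j s)).congr_deriv ?_
      congr 1
      rw [Nat.factorial_succ, Nat.add_sub_cancel]
      have h2 : ((K + 1 : ℕ) : ℝ) ≠ 0 := by positivity
      have h3 : (K.factorial : ℝ) ≠ 0 := by positivity
      push_cast at h2 ⊢
      field_simp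
    have hmono : MonotoneOn F (Set.Ici 0) := by
      refine monotoneOn_of_deriv_nonneg (convex_Ici 0)
        (fun s _ => (hFd s).continuousAt.continuousWithinAt)
        (fun s _ => (hFd s).differentiableAt.differentiableWithinAt) fun s hs => ?_
      rw [interior_Ici] at hs
      rw [(hFd s).deriv]
      linarith [hB' s (Set.mem_Ioi.1 hs).le]
    have h4 := hmono (Set.mem_Ici.2 le_rfl) (Set.mem_Ici.2 hs) hs
    have h5 : F 0 = 0 := by
      simp [hF, h0]
    rw [h5] at h4
    have h6 : F s = B * s ^ (K + 1) / ((K + 1).factorial : ℝ) - φ j s := rfl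
    linarith

theorem taylor_right' {φ : ℕ → ℝ → ℝ} (hd : ∀ k s, HasDerivAt (φ k) (φ (k + 1) s) s)
    (h0 : ∀ k, φ k 0 = 0) (K : ℕ) (B : ℝ) (hB : ∀ s, 0 ≤ s → |φ K s| ≤ B) (s : ℝ) (hs : 0 ≤ s) :
    |φ 0 s| ≤ B * s ^ K / (K.factorial : ℝ) := by
  rw [abs_le]
  constructor
  · have h1 := taylor_right (φ := fun k s => -φ k s) (fun k s => (hd k s).neg)
      (fun k => by simp [h0]) K 0 B (fun s hs => by
        simp only [zero_add]
        exact (neg_le_abs _).trans (hB s hs)) s hs
    linarith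
  · exact taylor_right hd h0 K 0 B (fun s hs => by
      rw [zero_add]
      exact (le_abs_self _).trans (hB s hs)) s hs

/-- vanishing near the origin, on the right -/
theorem ana_right {φ : ℕ → ℝ → ℝ} (hd : ∀ k s, HasDerivAt (φ k) (φ (k + 1) s) s)
    (h0 : ∀ k, φ k 0 = 0) {c R : ℝ} (hR : 0 < R) (P : ℕ)
    (hb : ∀ k s, |φ k s| ≤ c * (R ^ k * (((P + k).factorial : ℝ) / (P.factorial : ℝ))))
    (s : ℝ) (hs : 0 ≤ s) (hs' : s ≤ 1 / (4 * R)) : φ 0 s = 0 := by
  have hc : 0 ≤ c := by
    have h1 := hb 0 0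
    simp only [add_zero, pow_zero, one_mul] at h1
    have h2 : (0 : ℝ) < (P.factorial : ℝ) := by positivity
    rw [div_self h2.ne', mul_one] at h1
    exact (abs_nonneg _).trans h1
  have hK : ∀ K : ℕ, |φ 0 s| ≤ c * 2 ^ P * (1 / 2 : ℝ) ^ K := by
    intro K
    have h1 := taylor_right' hd h0 K _ (fun s _ => hb K s) s hs
    refine h1.trans ?_
    have h2 : c * (R ^ K * (((P + K).factorial : ℝ) / (P.factorial : ℝ))) * s ^ K
        / (K.factorial : ℝ) = c * ((R * s) ^ K * ((P + K).choose P : ℝ)) := by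
      have h3 : ((P + K).factorial : ℝ) =
          ((P + K).choose P : ℝ) * (P.factorial : ℝ) * (K.factorial : ℝ) := by
        have h4 := Nat.choose_mul_factorial_mul_factorial (Nat.le_add_right P K)
        rw [Nat.add_sub_cancel_left] at h4
        exact_mod_cast h4.symm
      have h5 : (P.factorial : ℝ) ≠ 0 := by positivity
      have h6 : (K.factorial : ℝ) ≠ 0 := by positivity
      rw [h3, mul_pow]
      field_simp
    rw [h2]
    have h7 : ((P + K).choose P : ℝ) ≤ 2 ^ (P + K) := by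
      exact_mod_cast Nat.choose_le_two_pow (P + K) P
    have h8 : (R * s) ^ K ≤ (1 / 4 : ℝ) ^ K := by
      refine pow_le_pow_left₀ (by positivity) ?_ K
      calc R * s ≤ R * (1 / (4 * R)) := mul_le_mul_of_nonneg_left hs' hR.le
        _ = 1 / 4 := by field_simp
    calc c * ((R * s) ^ K * ((P + K).choose P : ℝ)) ≤ c * ((1 / 4 : ℝ) ^ K * 2 ^ (P + K)) :=
          mul_le_mul_of_nonneg_left (mul_le_mul h8 h7 (by positivity) (by positivity)) hc
      _ = c * 2 ^ P * (1 / 2 : ℝ) ^ K := by
          rw [pow_add, show (1 / 4 : ℝ) = (1 / 2) * (1 / 2) by norm_num, mul_pow]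
          have h9 : (1 / 2 : ℝ) ^ K * 2 ^ K = 1 := by
            rw [← mul_pow]; norm_num
          calc c * ((1 / 2 : ℝ) ^ K * (1 / 2) ^ K * (2 ^ P * 2 ^ K)) =
              c * 2 ^ P * (1 / 2 : ℝ) ^ K * ((1 / 2 : ℝ) ^ K * 2 ^ K) := by ring
            _ = _ := by rw [h9, mul_one]
  have hlim : Tendsto (fun K : ℕ => c * 2 ^ P * (1 / 2 : ℝ) ^ K) atTop (nhds (c * 2 ^ P * 0)) :=
    (tendsto_pow_atTop_nhds_zero_of_lt_one (by norm_num) (by norm_num)).const_mul _
  rw [mul_zero] at hlim
  have h9 : |φ 0 s| ≤ 0 := ge_of_tendsto' hlim hK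
  exact abs_eq_zero.1 (le_antisymm h9 (abs_nonneg _))

/-- **a real analytic family with uniform radius of convergence which vanishes to infinite order
at the origin is zero** -/
theorem ana_zero {φ : ℕ → ℝ → ℝ} (hd : ∀ k s, HasDerivAt (φ k) (φ (k + 1) s) s)
    (h0 : ∀ k, φ k 0 = 0) {c R : ℝ} (hR : 0 < R) (P : ℕ)
    (hb : ∀ k s, |φ k s| ≤ c * (R ^ k * (((P + k).factorial : ℝ) / (P.factorial : ℝ)))) :
    ∀ k s, φ k s = 0 := by
  -- the shifted families satisfy the same bounds
  have hb' : ∀ j k s, |φ (k + j) s| ≤ (c * R ^ j * (((P + j).factorial : ℝ) / (P.factorial : ℝ)))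
      * (R ^ k * (((P + j + k).factorial : ℝ) / ((P + j).factorial : ℝ))) := by
    intro j k s
    refine (hb (k + j) s).trans (le_of_eq ?_)
    have h5 : (P.factorial : ℝ) ≠ 0 := by positivity
    have h6 : ((P + j).factorial : ℝ) ≠ 0 := by positivity
    have e : P + (k + j) = P + j + k := by ring
    rw [e, pow_add]
    field_simp
  have hR4 : 0 < 1 / (4 * R) := by positivity
  -- one step to the right and to the left
  have stepR : ∀ t0, (∀ k, φ k t0 = 0) → ∀ s, t0 ≤ s → s ≤ t0 + 1 / (4 * R) → ∀ k, φ k s = 0 := by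
    intro t0 ht s hs hs' k
    have h := ana_right (φ := fun i s => φ (i + k) (s + t0)) (fun i s => by
        have e : i + k + 1 = i + 1 + k := by ring
        have h1 := (hd (i + k) (s + t0)).comp_add_const s t0
        rw [e] at h1
        exact h1) (fun i => by simp only [zero_add]; exact ht (i + k)) hR (P + k)
      (fun i s => hb' k i (s + t0)) (s - t0) (by linarith) (by linarith)
    simp only [zero_add, sub_add_cancel] at h
    exact h
  have stepL : ∀ t0, (∀ k, φ k t0 = 0) → ∀ s, s ≤ t0 → t0 - 1 / (4 * R) ≤ s → ∀ k, φ k s = 0 := by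
    intro t0 ht s hs hs' k
    have h := ana_right (φ := fun i s => (-1) ^ i * φ (i + k) (t0 - s)) (fun i s => by
        have e : i + k + 1 = i + 1 + k := by ring
        have h1 : HasDerivAt (fun s => φ (i + k) (t0 - s)) (-φ (i + k + 1) (t0 - s)) s :=
          (hd (i + k) (t0 - s)).comp_const_sub t0 s
        rw [e] at h1
        refine (h1.const_mul ((-1) ^ i)).congr_deriv ?_
        rw [pow_succ]; ring) (fun i => by simp only [sub_zero]; rw [ht]; ring) hR (P + k)
      (fun i s => by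
        rw [abs_mul, abs_pow, abs_neg, abs_one, one_pow, one_mul]
        exact hb' k i (t0 - s)) (t0 - s) (by linarith) (by linarith)
    simp only [zero_add, pow_zero, one_mul, sub_sub_cancel] at h
    exact h
  have hall : ∀ m : ℕ, ∀ s, |s| ≤ m * (1 / (4 * R)) → ∀ k, φ k s = 0 := by
    intro m
    induction m with
    | zero =>
      intro s hs k
      have : s = 0 := by
        have h1 : |s| ≤ 0 := by simpa using hs
        exact abs_eq_zero.1 (le_antisymm h1 (abs_nonneg _))
      rw [this]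
      exact h0 k
    | succ m ih =>
      intro s hs k
      push_cast at hs
      have hs2 : |s| ≤ m * (1 / (4 * R)) + 1 / (4 * R) := by linarith
      set A : ℝ := m * (1 / (4 * R)) with hA
      have hA0 : 0 ≤ A := by positivity
      by_cases h1 : |s| ≤ A
      · exact ih s h1 k
      push Not at h1
      by_cases h2 : 0 ≤ s
      · rw [abs_of_nonneg h2] at h1 hs2
        exact stepR A (ih A (by rw [abs_of_nonneg hA0])) s h1.le hs2 k
      · push Not at h2
        rw [abs_of_neg h2] at h1 hs2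
        exact stepL (-A) (ih (-A) (by rw [abs_neg, abs_of_nonneg hA0])) s (by linarith)
          (by linarith) k
  intro k s
  obtain ⟨m, hm⟩ := exists_nat_ge (|s| / (1 / (4 * R)))
  refine hall m s ?_ k
  rwa [div_le_iff₀ hR4] at hm

end Vale.Agent.P207.H316
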