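import Vale.Agent.P207.H391.PiLad
import Vale.Agent.P207.Low.Abs
import Vale.Agent.P207.H316.Ana

/-!
# P207, block CROSS: submodules which are orthogonal along the flow
-/

noncomputable section

universe u

namespace Vale.Agent.P207.H316

open Vale.Agent.P207.H662 Vale.Agent.P207.Low Vale.Agent.P207.H391

variable {W : Type u} [AddCommGroup W] [Module ℝ W] {L : Lad W}

section flow

variable (Φ : Flw L)

/-- the adjoint of the flow -/
theorem U_adj (t : ℝ) (f g : W) : L.ip (Φ.U t f) g = L.ip f (Φ.U (-t) g) := by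
  have h := Φ.iso (-t) (Φ.U t f) g
  rw [← Φ.add, neg_add_cancel, Φ.zero] at h
  exact h.symm

theorem U_adj' (t : ℝ) (f g : W) : L.ip f (Φ.U t g) = L.ip (Φ.U (-t) f) g := by
  rw [U_adj, neg_neg]

/-- the derivative along the flow, at every time -/
theorem derU (f g : W) (t : ℝ) :
    HasDerivAt (fun s => L.ip (Φ.U s f) g) (L.ip (Φ.U t (L.X f)) g) t := by
  have h1 : HasDerivAt (fun s => L.ip (Φ.U s f) (Φ.U (-t) g)) (L.ip (L.X f) (Φ.U (-t) g))
      (t - t) := by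
    rw [sub_self]; exact Φ.der f (Φ.U (-t) g)
  have h2 := h1.comp_sub_const t t
  rw [← U_adj] at h2
  have e : (fun s => L.ip (Φ.U (s - t) f) (Φ.U (-t) g)) = fun s => L.ip (Φ.U s f) g := by
    funext s
    rw [← U_adj, ← Φ.add, add_sub_cancel]
  rw [e] at h2
  exact h2

/-- the same derivative, the other way round -/
theorem derU' (f g : W) (t : ℝ) :
    HasDerivAt (fun s => L.ip (Φ.U s f) g) (L.ip (L.X (Φ.U t f)) g) t := by
  have h1 : HasDerivAt (fun s => L.ip (Φ.U s (Φ.U t f)) g) (L.ip (L.X (Φ.U t f)) g) (t - t) := by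
    rw [sub_self]; exact Φ.der (Φ.U t f) g
  have h2 := h1.comp_sub_const t t
  have e : (fun s => L.ip (Φ.U (s - t) (Φ.U t f)) g) = fun s => L.ip (Φ.U s f) g := by
    funext s
    rw [← Φ.add, sub_add_cancel]
  rw [e] at h2
  exact h2

/-- the flow commutes with `X` (weakly) -/
theorem X_U (f g : W) (t : ℝ) : L.ip (L.X (Φ.U t f)) g = L.ip (Φ.U t (L.X f)) g :=
  (derU' Φ f g t).unique (derU Φ f g t)

/-- the product rule at every time -/
theorem hasD_at {D : W →ₗ[ℝ] W} (h : HasD L.ip L.X Φ.U D) (f g : W) (t : ℝ) :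
    HasDerivAt (fun s => L.ip (D (Φ.U s f)) (Φ.U s g))
      (L.ip (D (L.X (Φ.U t f))) (Φ.U t g) + L.ip (D (Φ.U t f)) (L.X (Φ.U t g))) t := by
  have h1 : HasDerivAt (fun s => L.ip (D (Φ.U s (Φ.U t f))) (Φ.U s (Φ.U t g)))
      (L.ip (D (L.X (Φ.U t f))) (Φ.U t g) + L.ip (D (Φ.U t f)) (L.X (Φ.U t g))) (t - t) := by
    rw [sub_self]; exact h (Φ.U t f) (Φ.U t g)
  have h2 := h1.comp_sub_const t t
  have e : (fun s => L.ip (D (Φ.U (s - t) (Φ.U t f))) (Φ.U (s - t) (Φ.U t g))) =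
      fun s => L.ip (D (Φ.U s f)) (Φ.U s g) := by
    funext s
    rw [← Φ.add, ← Φ.add, sub_add_cancel]
  rw [e] at h2
  exact h2

/-- the commutator along the flow -/
theorem comm_at {D D' : W →ₗ[ℝ] W} (h : HasD L.ip L.X Φ.U D)
    (hD : ∀ f, L.X (D f) = D (L.X f) + D' f) (f g : W) (t : ℝ) :
    HasDerivAt (fun s => L.ip (D (Φ.U s f)) (Φ.U s g)) (-L.ip (D' (Φ.U t f)) (Φ.U t g)) t := by
  refine (hasD_at Φ h f g t).congr_deriv ?_
  have h1 := L.skew (D (Φ.U t f)) (Φ.U t g)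
  rw [hD, map_add, LinearMap.add_apply] at h1
  linarith

/-- `X` itself is constant along the flow -/
theorem X_const (f g : W) (t : ℝ) :
    L.ip (L.X (Φ.U t f)) (Φ.U t g) = L.ip (L.X f) g := by
  rw [X_U, Φ.iso]

end flow

/-- the vectors whose orbit is orthogonal to `M` -/
def OrbP (Φ : Flw L) (M : Submodule ℝ W) : Submodule ℝ W where
  carrier := {v | ∀ t, ∀ u ∈ M, L.ip (Φ.U t v) u = 0}
  add_mem' := by
    intro a b ha hb t u hu
    rw [map_add, map_add, LinearMap.add_apply, ha t u hu, hb t u hu, add_zero]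
  zero_mem' := by
    intro t u _
    rw [map_zero, map_zero, LinearMap.zero_apply]
  smul_mem' := by
    intro c a ha t u hu
    rw [map_smul, map_smul, LinearMap.smul_apply, ha t u hu, smul_zero]

variable {Φ : Flw L} {M : Submodule ℝ W}

theorem OrbP_U {v : W} (hv : v ∈ OrbP Φ M) (s : ℝ) : Φ.U s v ∈ OrbP Φ M := by
  intro t u hu
  rw [← Φ.add]
  exact hv (t + s) u hu

theorem OrbP_X {v : W} (hv : v ∈ OrbP Φ M) : L.X v ∈ OrbP Φ M := by
  intro t u hu
  have h1 := derU Φ v u t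
  have h2 : (fun s => L.ip (Φ.U s v) u) = fun _ => 0 := by
    funext s; exact hv s u hu
  rw [h2] at h1
  exact h1.unique (hasDerivAt_const t (0 : ℝ))

/-- the operators of one eigenvalue -/
theorem OrbP_one {κ q k : ℝ} (hk : 0 < k) (hκ : κ = k ^ 2) (L1 : Lad1 W L.ip L.X κ q)
    (hΔ : HasD L.ip L.X Φ.U L1.Δ) (hE : HasD L.ip L.X Φ.U L1.E) (hS : HasD L.ip L.X Φ.U L1.S)
    (mX : ∀ u ∈ M, L.X u ∈ M) (mΔ : ∀ u ∈ M, L1.Δ u ∈ M) (mE : ∀ u ∈ M, L1.E u ∈ M)
    (mS : ∀ u ∈ M, L1.S u ∈ M) {v : W} (hv : v ∈ OrbP Φ M) :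
    L1.Δ v ∈ OrbP Φ M ∧ L1.E v ∈ OrbP Φ M ∧ L1.S v ∈ OrbP Φ M := by
  have key : ∀ t, ∀ u ∈ M, L.ip (L1.Δ v) (Φ.U (-t) u) = 0 ∧
      L.ip (L1.E v) (Φ.U (-t) u) + q / 2 * L.ip (L.X v) (Φ.U (-t) u) = 0 ∧
      L.ip (L1.S v) (Φ.U (-t) u) = 0 := by
    intro t u hu
    set g := Φ.U (-t) u with hg
    have hgt : Φ.U t g = u := by rw [hg, ← Φ.add, add_neg_cancel, Φ.zero]
    have d1 : ∀ s, HasDerivAt (fun s => L.ip (L1.Δ (Φ.U s v)) (Φ.U s g))
        (-(2 * (L.ip (L1.E (Φ.U s v)) (Φ.U s g) + q / 2 * L.ip (L.X v) g))) s := by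
      intro s
      refine (comm_at Φ hΔ (D' := (2 : ℝ) • L1.E + q • L.X) (fun f => by
        rw [L1.X_Δ, LinearMap.add_apply, LinearMap.smul_apply, LinearMap.smul_apply,
          add_assoc]) v g s).congr_deriv ?_
      rw [LinearMap.add_apply, LinearMap.smul_apply, LinearMap.smul_apply, map_add, map_smul,
        map_smul, LinearMap.add_apply, LinearMap.smul_apply, LinearMap.smul_apply, X_const,
        smul_eq_mul, smul_eq_mul]
      ring
    have d2 : ∀ s, HasDerivAt (fun s => L.ip (L1.E (Φ.U s v)) (Φ.U s g)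
        + q / 2 * L.ip (L.X v) g)
        (-(κ * L.ip (L1.Δ (Φ.U s v)) (Φ.U s g) + L.ip (L1.S (Φ.U s v)) (Φ.U s g))) s := by
      intro s
      refine ((comm_at Φ hE (D' := κ • L1.Δ + L1.S) (fun f => by
        rw [L1.X_E, LinearMap.add_apply, LinearMap.smul_apply,
          add_assoc]) v g s).add_const _).congr_deriv ?_
      rw [LinearMap.add_apply, LinearMap.smul_apply, map_add, map_smul, LinearMap.add_apply,
        LinearMap.smul_apply, smul_eq_mul]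
    have d3 : ∀ s, HasDerivAt (fun s => L.ip (L1.S (Φ.U s v)) (Φ.U s g))
        (-(2 * κ * (L.ip (L1.E (Φ.U s v)) (Φ.U s g) + q / 2 * L.ip (L.X v) g))) s := by
      intro s
      refine (comm_at Φ hS (D' := κ • ((2 : ℝ) • L1.E + q • L.X)) (fun f => by
        rw [L1.X_S, LinearMap.smul_apply, LinearMap.add_apply, LinearMap.smul_apply,
          LinearMap.smul_apply]) v g s).congr_deriv ?_
      rw [LinearMap.smul_apply, LinearMap.add_apply, LinearMap.smul_apply, LinearMap.smul_apply,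
        map_smul, map_add, map_smul, map_smul, LinearMap.smul_apply, LinearMap.add_apply,
        LinearMap.smul_apply, LinearMap.smul_apply, X_const, smul_eq_mul, smul_eq_mul,
        smul_eq_mul]
      ring
    have t1 : L.ip (L1.Δ (Φ.U t v)) (Φ.U t g) = 0 := by
      rw [hgt, L1.Δ_symm]; exact hv t _ (mΔ u hu)
    have t3 : L.ip (L1.S (Φ.U t v)) (Φ.U t g) = 0 := by
      rw [hgt, L1.S_symm]; exact hv t _ (mS u hu)
    have t2 : L.ip (L1.E (Φ.U t v)) (Φ.U t g) + q / 2 * L.ip (L.X v) g = 0 := by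
      have e1 : L.ip (L.X v) g = 0 := by
        rw [← X_const Φ v g t, hgt, L.skew, hv t _ (mX u hu), neg_zero]
      rw [hgt, L1.E_adj, e1, mul_zero, add_zero]
      exact hv t _ (M.add_mem (mE u hu) (M.smul_mem q (mX u hu)))
    have h := sys_zero hk hκ d1 d2 d3 t1 t2 t3 0
    simp only [Φ.zero] at h
    exact h
  have hX := OrbP_X hv
  refine ⟨fun t u hu => ?_, fun t u hu => ?_, fun t u hu => ?_⟩
  · rw [U_adj]; exact (key t u hu).1
  · rw [U_adj]
    have h1 := (key t u hu).2.1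
    have h2 := hX t u hu
    rw [U_adj] at h2
    rw [h2, mul_zero, add_zero] at h1
    exact h1
  · rw [U_adj]; exact (key t u hu).2.2

theorem OrbP_stable (hM : Stable L M) : Stable L (OrbP Φ M) where
  X _ hu := OrbP_X hu
  Δ1 _ hu := (OrbP_one (k := 1) one_pos (by norm_num) L.L1 Φ.dΔ1 Φ.dE1 Φ.dS1 hM.X hM.Δ1 hM.E1
    hM.S1 hu).1
  E1 _ hu := (OrbP_one (k := 1) one_pos (by norm_num) L.L1 Φ.dΔ1 Φ.dE1 Φ.dS1 hM.X hM.Δ1 hM.E1
    hM.S1 hu).2.1
  S1 _ hu := (OrbP_one (k := 1) one_pos (by norm_num) L.L1 Φ.dΔ1 Φ.dE1 Φ.dS1 hM.X hM.Δ1 hM.E1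
    hM.S1 hu).2.2
  Δ2 _ hu := (OrbP_one (k := 2) two_pos (by norm_num) L.L2 Φ.dΔ2 Φ.dE2 Φ.dS2 hM.X hM.Δ2 hM.E2
    hM.S2 hu).1
  E2 _ hu := (OrbP_one (k := 2) two_pos (by norm_num) L.L2 Φ.dΔ2 Φ.dE2 Φ.dS2 hM.X hM.Δ2 hM.E2
    hM.S2 hu).2.1
  S2 _ hu := (OrbP_one (k := 2) two_pos (by norm_num) L.L2 Φ.dΔ2 Φ.dE2 Φ.dS2 hM.X hM.Δ2 hM.E2
    hM.S2 hu).2.2

/-- **two stable submodules which are orthogonal along the flow are contained in orthogonal
submodules which are stable under the operators and the flow** -/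
theorem exists_closure {N : Submodule ℝ W} (hM : Stable L M)
    (h : ∀ t, ∀ v ∈ N, ∀ u ∈ M, L.ip (Φ.U t v) u = 0) :
    ∃ M' N' : Submodule ℝ W, M ≤ M' ∧ N ≤ N' ∧ Stable L M' ∧ Stable L N' ∧
      (∀ t, ∀ u ∈ M', Φ.U t u ∈ M') ∧ (∀ t, ∀ u ∈ N', Φ.U t u ∈ N') ∧ Perp L M' N' := by
  refine ⟨OrbP Φ (OrbP Φ M), OrbP Φ M, ?_, fun v hv t u hu => h t v hv u hu,
    OrbP_stable (OrbP_stable hM), OrbP_stable hM, fun t u hu => OrbP_U hu t,
    fun t u hu => OrbP_U hu t, ?_⟩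
  · intro u hu t v hv
    rw [U_adj, L.symm]
    exact hv (-t) u hu
  · intro u hu v hv
    have h1 := hu 0 v hv
    rwa [Φ.zero] at h1

end Vale.Agent.P207.H316
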