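import Vale.Agent.P207.H316.CrossU

/-!
# P207, block CROSS: the theorem
-/

set_option linter.unusedSectionVars false

noncomputable section

universe u

namespace Vale.Agent.P207.H316

open Vale.Agent.P207.H662 Vale.Agent.P207.Low Vale.Agent.P207.H391 Vale.Agent.P207.H468

variable {W : Type u} [AddCommGroup W] [Module ℝ W] {L : H662.Lad W}

variable (L) in
/-- the norm -/
def nm (u : W) : ℝ := √(L.ip u u)

theorem nm_nonneg (u : W) : 0 ≤ nm L u := Real.sqrt_nonneg _

theorem abs_ip_le (a b : W) : |L.ip a b| ≤ nm L a * nm L b := by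
  unfold nm
  rw [← Real.sqrt_mul (L.nonneg a)]
  exact Real.abs_le_sqrt (cs a b)

theorem nm_smul (c : ℝ) (a : W) : nm L (c • a) = |c| * nm L a := by
  unfold nm
  rw [map_smul, map_smul, LinearMap.smul_apply, smul_eq_mul, smul_eq_mul, ← mul_assoc,
    Real.sqrt_mul (mul_self_nonneg c), Real.sqrt_mul_self_eq_abs]

/-- `u` has degree at most `P` and norm at most `c` -/
inductive Gd (L : H662.Lad W) : ℕ → ℝ → W → Prop
  | of (p P : ℕ) (c : ℝ) (u : W) : p ≤ P → Deg L (p : ℝ) u → nm L u ≤ c → Gd L P c u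
  | add (P : ℕ) (c c' : ℝ) (u v : W) : Gd L P c u → Gd L P c' v → Gd L P (c + c') (u + v)

theorem Gd.mono {P : ℕ} {c : ℝ} {u : W} (h : Gd L P c u) :
    ∀ {P' : ℕ} {c' : ℝ}, P ≤ P' → c ≤ c' → Gd L P' c' u := by
  induction h with
  | of p P c u hp hu hc => intro P' c' h1 h2; exact Gd.of p P' c' u (hp.trans h1) hu (hc.trans h2)
  | add P c c' u v _ _ ih1 ih2 =>
    intro P' d h1 h2
    have := Gd.add P' c (d - c) u v (ih1 h1 le_rfl) (ih2 h1 (by linarith))
    rwa [add_sub_cancel] at this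

theorem Gd.smul {P : ℕ} {c : ℝ} {u : W} (h : Gd L P c u) (a : ℝ) :
    Gd L P (|a| * c) (a • u) := by
  induction h with
  | of p P c u hp hu hc =>
    refine Gd.of p P _ _ hp ?_ ?_
    · unfold Deg
      rw [map_smul, show L.D u = ev (dim L) p • u from hu, smul_comm]
    · rw [nm_smul]
      exact mul_le_mul_of_nonneg_left hc (abs_nonneg a)
  | add P c c' u v _ _ ih1 ih2 =>
    rw [smul_add, mul_add]
    exact Gd.add P _ _ _ _ ih1 ih2

theorem Gd.ip_le {P : ℕ} {c : ℝ} {u : W} (h : Gd L P c u) (w : W) :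
    |L.ip u w| ≤ c * nm L w := by
  induction h with
  | of p P c u hp hu hc =>
    exact (abs_ip_le u w).trans (mul_le_mul_of_nonneg_right hc (nm_nonneg w))
  | add P c c' u v _ _ ih1 ih2 =>
    rw [map_add, LinearMap.add_apply, add_mul]
    exact (abs_add_le _ _).trans (add_le_add ih1 ih2)

theorem deg_zero : Deg L ((0 : ℕ) : ℝ) (0 : W) := by
  unfold Deg; rw [map_zero, smul_zero]

theorem nm_zero : nm L 0 = 0 := by unfold nm; simp

section deg

variable (hn : 4 < dim L) (hdef : ∀ f, L.ip f f = 0 → f = 0) {lam : ℝ}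
  (hlam : ∀ f, L.Lam f = lam • f)
include hn hdef hlam

/-- one application of `X` -/
theorem Gd.X {P : ℕ} {c : ℝ} {u : W} (h : Gd L P c u) :
    Gd L (P + 1) (2 * √(|lam| + 4) * ((P : ℝ) + 1) * c) (L.X u) := by
  have hC : 0 ≤ √(|lam| + 4) := Real.sqrt_nonneg _
  induction h with
  | of p P c u hp hu hc =>
    have hc0 : 0 ≤ c := (nm_nonneg u).trans hc
    have hpP : (p : ℝ) ≤ P := by exact_mod_cast hp
    have hp0 : (0 : ℝ) ≤ p := Nat.cast_nonneg p
    have key : ∀ x y : ℝ, ∀ v : W, 0 ≤ x → x ≤ (P : ℝ) + 1 →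
        L.ip v v ≤ ((|lam| + 4) * x ^ 2) * L.ip u u →
        nm L v ≤ √(|lam| + 4) * ((P : ℝ) + 1) * c := by
      intro x y v hx hxP hv
      have h1 : nm L v ≤ √(|lam| + 4) * x * nm L u := by
        unfold nm
        refine (Real.sqrt_le_sqrt hv).trans (le_of_eq ?_)
        rw [Real.sqrt_mul (by positivity), Real.sqrt_mul (by positivity), Real.sqrt_sq hx]
      refine h1.trans ?_
      exact mul_le_mul (mul_le_mul_of_nonneg_left hxP hC) hc (nm_nonneg u) (by positivity)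
    have h1 : Gd L (P + 1) (√(|lam| + 4) * ((P : ℝ) + 1) * c) (upp L p u) := by
      refine Gd.of (p + 1) (P + 1) _ _ (by omega) ?_ ?_
      · have := hu.up hn
        rw [Nat.cast_add, Nat.cast_one]
        exact this
      · exact key ((p : ℝ) + 1) 0 _ (by positivity) (by linarith) (up_le hn hdef hlam p u hu)
    have h2 : Gd L (P + 1) (√(|lam| + 4) * ((P : ℝ) + 1) * c) (dnn L p u) := by
      cases p with
      | zero =>
        rw [Nat.cast_zero] at hu ⊢
        rw [dn_zero hn hdef hu]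
        refine Gd.of 0 (P + 1) _ _ (Nat.zero_le _) deg_zero ?_
        rw [nm_zero]
        positivity
      | succ p =>
        have hp1 : (((p + 1 : ℕ) : ℝ)) = (p : ℝ) + 1 := by push_cast; ring
        rw [hp1] at hu hpP ⊢
        refine Gd.of p (P + 1) _ _ (by omega) ?_ ?_
        · have := hu.dn hn
          rwa [add_sub_cancel_right] at this
        · exact key ((p : ℝ) + 1) 0 _ (by positivity) (by linarith) (dn_le hn hdef hlam p u hu)
    have h3 := Gd.add (P + 1) _ _ _ _ h1 h2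
    rw [X_split hn hp0] at h3
    refine h3.mono le_rfl (le_of_eq ?_)
    ring
  | add P c c' u v _ _ ih1 ih2 =>
    have h3 := Gd.add (P + 1) _ _ _ _ ih1 ih2
    rw [← map_add] at h3
    refine h3.mono le_rfl (le_of_eq ?_)
    ring

/-- all powers of `X` -/
theorem Gd.iter {P : ℕ} {c : ℝ} {u : W} (h : Gd L P c u) (k : ℕ) :
    Gd L (P + k) (c * ((2 * √(|lam| + 4)) ^ k * (((P + k).factorial : ℝ) / (P.factorial : ℝ))))
      (L.X^[k] u) := by
  induction k with
  | zero =>
    have : (P.factorial : ℝ) ≠ 0 := by positivity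
    simpa [div_self this] using h
  | succ k ih =>
    rw [Function.iterate_succ_apply']
    have h1 := Gd.X hn hdef hlam ih
    refine h1.mono (by omega) (le_of_eq ?_)
    have h2 : P + (k + 1) = (P + k) + 1 := by ring
    rw [h2, Nat.factorial_succ, pow_succ]
    push_cast
    ring

end deg

/-! ### the submodule of functions of finite degree -/

variable (L) in
/-- functions of finite degree -/
def Fil : Submodule ℝ W := Submodule.span ℝ {u | ∃ p : ℕ, Deg L (p : ℝ) u}

theorem mem_Fil {p : ℕ} {u : W} (h : Deg L (p : ℝ) u) : u ∈ Fil L :=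
  Submodule.subset_span ⟨p, h⟩

theorem exists_Gd {u : W} (h : u ∈ Fil L) : ∃ (P : ℕ) (c : ℝ), Gd L P c u := by
  refine Submodule.span_induction (p := fun u _ => ∃ (P : ℕ) (c : ℝ), Gd L P c u)
    ?_ ?_ ?_ ?_ h
  · rintro u ⟨p, hp⟩
    exact ⟨p, nm L u, Gd.of p p _ u le_rfl hp le_rfl⟩
  · exact ⟨0, 0, Gd.of 0 0 _ _ le_rfl deg_zero (by rw [nm_zero])⟩
  · rintro u v _ _ ⟨P, c, hu⟩ ⟨P', c', hv⟩
    exact ⟨max P P', c + c', Gd.add _ _ _ _ _ (hu.mono (le_max_left _ _) le_rfl)
      (hv.mono (le_max_right _ _) le_rfl)⟩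
  · rintro a u _ ⟨P, c, hu⟩
    exact ⟨P, |a| * c, hu.smul a⟩

theorem typ_mem_Fil {p : ℕ} {q : ℝ} {u : W} (h : Typ L p q u) : u ∈ Fil L := mem_Fil h.D

/-- a linear map which preserves the generators preserves the span -/
theorem Fil_map {T : W →ₗ[ℝ] W} (h : ∀ (p : ℕ) (u : W), Deg L (p : ℝ) u → T u ∈ Fil L) {u : W}
    (hu : u ∈ Fil L) : T u ∈ Fil L := by
  have h1 : Fil L ≤ (Fil L).comap T := by
    refine Submodule.span_le.2 ?_
    rintro u ⟨p, hp⟩
    exact h p u hp
  exact h1 hu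

section stab

variable (hn : 4 < dim L) (hdef : ∀ f, L.ip f f = 0 → f = 0)
include hn hdef

theorem Fil_X {u : W} (hu : u ∈ Fil L) : L.X u ∈ Fil L := by
  refine Fil_map (fun p u hu => ?_) hu
  rw [← X_split hn (Nat.cast_nonneg p) u]
  refine (Fil L).add_mem (mem_Fil (p := p + 1) ?_) ?_
  · have := hu.up hn
    rw [Nat.cast_add, Nat.cast_one]
    exact this
  · cases p with
    | zero =>
      rw [Nat.cast_zero] at hu ⊢
      rw [dn_zero hn hdef hu]
      exact (Fil L).zero_mem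
    | succ p =>
      have hp1 : (((p + 1 : ℕ) : ℝ)) = (p : ℝ) + 1 := by push_cast; ring
      rw [hp1] at hu ⊢
      refine mem_Fil (p := p) ?_
      have := hu.dn hn
      rwa [add_sub_cancel_right] at this

theorem Fil_Δ2 {u : W} (hu : u ∈ Fil L) : L.L2.Δ u ∈ Fil L := by
  refine Fil_map (fun p u hu => mem_Fil (p := p) ?_) hu
  have hu' : L.L1.Δ u + L.L2.Δ u = ev (dim L) p • u := hu
  unfold Deg
  rw [Lad.D_apply, L.comm, ← map_add, hu', map_smul]

theorem Fil_Δ1 {u : W} (hu : u ∈ Fil L) : L.L1.Δ u ∈ Fil L := by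
  have h1 : L.L1.Δ u = L.D u - L.L2.Δ u := by rw [Lad.D_apply]; abel
  rw [h1]
  refine (Fil L).sub_mem ?_ (Fil_Δ2 hn hdef hu)
  refine Fil_map (fun p u hu => ?_) hu
  rw [show L.D u = ev (dim L) p • u from hu]
  exact (Fil L).smul_mem _ (mem_Fil hu)

theorem Fil_ES {κ q : ℝ} (L1 : Lad1 W L.ip L.X κ q) (hΔ : ∀ u ∈ Fil L, L1.Δ u ∈ Fil L) {u : W}
    (hu : u ∈ Fil L) : L1.E u ∈ Fil L ∧ L1.S u ∈ Fil L := by
  have hE : ∀ u ∈ Fil L, L1.E u ∈ Fil L := by
    intro u hu
    have h1 : L1.E u = (1 / 2 : ℝ) • (L.X (L1.Δ u) - L1.Δ (L.X u) - q • L.X u) := by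
      rw [L1.X_Δ]; module
    rw [h1]
    exact (Fil L).smul_mem _ ((Fil L).sub_mem ((Fil L).sub_mem (Fil_X hn hdef (hΔ u hu))
      (hΔ _ (Fil_X hn hdef hu))) ((Fil L).smul_mem _ (Fil_X hn hdef hu)))
  refine ⟨hE u hu, ?_⟩
  have h1 : L1.S u = L.X (L1.E u) - L1.E (L.X u) - κ • L1.Δ u := by
    rw [L1.X_E]; module
  rw [h1]
  exact (Fil L).sub_mem ((Fil L).sub_mem (Fil_X hn hdef (hE u hu)) (hE _ (Fil_X hn hdef hu)))
    ((Fil L).smul_mem _ (hΔ u hu))

/-- the functions of finite degree are stable under all operators -/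
theorem stable_Fil : Stable L (Fil L) where
  X _ hu := Fil_X hn hdef hu
  Δ1 _ hu := Fil_Δ1 hn hdef hu
  E1 _ hu := (Fil_ES hn hdef L.L1 (fun _ h => Fil_Δ1 hn hdef h) hu).1
  S1 _ hu := (Fil_ES hn hdef L.L1 (fun _ h => Fil_Δ1 hn hdef h) hu).2
  Δ2 _ hu := Fil_Δ2 hn hdef hu
  E2 _ hu := (Fil_ES hn hdef L.L2 (fun _ h => Fil_Δ2 hn hdef h) hu).1
  S2 _ hu := (Fil_ES hn hdef L.L2 (fun _ h => Fil_Δ2 hn hdef h) hu).2

/-- the module generated by functions of finite degree -/
theorem Mod_le_Fil {s : Set W} (h : ∀ u ∈ s, ∃ (p : ℕ) (q : ℝ), Typ L p q u) :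
    Mod L s ≤ Fil L := by
  refine Mod_le (fun u hu => ?_) (stable_Fil hn hdef)
  obtain ⟨p, q, h1⟩ := h u hu
  exact typ_mem_Fil h1

end stab

section main

variable {Φ : Flw L} (hn : 4 < dim L) (hdef : ∀ f, L.ip f f = 0 → f = 0) {lam : ℝ}
  (hlam : ∀ f, L.Lam f = lam • f)
include hn hdef hlam

/-- **orthogonality is propagated by the flow** -/
theorem perp_flow {M N : Submodule ℝ W} (hN : ∀ u ∈ N, L.X u ∈ N)
    (hMN : Perp L M N) (hfin : N ≤ Fil L) (t : ℝ) {v : W} (hv : v ∈ N) {u : W} (hu : u ∈ M) :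
    L.ip (Φ.U t v) u = 0 := by
  have hmem : ∀ k, L.X^[k] v ∈ N := by
    intro k
    induction k with
    | zero => exact hv
    | succ k ih => rw [Function.iterate_succ_apply']; exact hN _ ih
  obtain ⟨P, c, hc⟩ := exists_Gd (hfin hv)
  have hR : 0 < 2 * √(|lam| + 4) := by positivity
  have h := ana_zero (φ := fun k s => L.ip (Φ.U s (L.X^[k] v)) u) (fun k s => by
      have h1 := derU Φ (L.X^[k] v) u s
      rw [Function.iterate_succ_apply']
      exact h1) (fun k => by
        show L.ip (Φ.U 0 (L.X^[k] v)) u = 0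
        rw [Φ.zero]
        exact hMN.symm _ (hmem k) _ hu) hR P (c := c * nm L u) (fun k s => by
        show |L.ip (Φ.U s (L.X^[k] v)) u| ≤ _
        rw [U_adj]
        have h1 := (Gd.iter hn hdef hlam hc k).ip_le (Φ.U (-s) u)
        have h2 : nm L (Φ.U (-s) u) = nm L u := by unfold nm; rw [Φ.iso]
        rw [h2] at h1
        refine h1.trans (le_of_eq ?_)
        ring) 0 t
  exact h

/-- **CROSS**: two stable submodules which are orthogonal, one of them made of functions of finite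
degree, are contained in orthogonal submodules which are stable under the operators and under the
geodesic flow -/
theorem cross_flow {M N : Submodule ℝ W} (hM : Stable L M) (hN : Stable L N)
    (hMN : Perp L M N) (hfin : N ≤ Fil L) :
    ∃ M' N' : Submodule ℝ W, M ≤ M' ∧ N ≤ N' ∧ Stable L M' ∧ Stable L N' ∧
      (∀ t, ∀ u ∈ M', Φ.U t u ∈ M') ∧ (∀ t, ∀ u ∈ N', Φ.U t u ∈ N') ∧ Perp L M' N' :=
  exists_closure hM fun t _ hv _ hu => perp_flow (Φ := Φ) hn hdef hlam hN.X hMN hfin t hv hu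

end main

end Vale.Agent.P207.H316
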