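import Vale.Agent.P207.H316.CrossA
import Vale.Agent.P207.H468.Bridge

/-!
# P207, block CROSS: functions of finite degree are analytic vectors of the geodesic flow
-/

set_option linter.unusedSectionVars false

noncomputable section

universe u

namespace Vale.Agent.P207.H316

open Vale.Agent.P207.H662 Vale.Agent.P207.Low Vale.Agent.P207.H391 Vale.Agent.P207.H468

variable {W : Type u} [AddCommGroup W] [Module ℝ W] {L : H662.Lad W}

/-! ### degrees -/

variable (L) in
/-- functions of degree `p` -/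
def Deg (p : ℝ) (u : W) : Prop := L.D u = ev (dim L) p • u

theorem relD (L : H662.Lad W) : Rel L.X L.D (dim L) := by
  intro f
  have h := L.deg f
  have e1 : (Low.dim L - 1) * (Low.dim L - 3) = (L.e + L.d) * (L.e + L.d - 2) := by
    unfold Low.dim; ring
  rw [e1]
  have h2 : L.D (L.D (L.X f)) - (2 : ℝ) • L.D (L.X (L.D f)) + L.X (L.D (L.D f))
    = (2 : ℝ) • (L.D (L.X f) + L.X (L.D f)) + ((L.e + L.d) * (L.e + L.d - 2)) • L.X f := h
  rw [← h2]; abel

theorem D1_nonneg (u : W) : 0 ≤ L.ip (L.L1.Δ u) u := by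
  have h := L.L1.pos u 0
  simpa using h

theorem D2_nonneg (u : W) : 0 ≤ L.ip (L.L2.Δ u) u := by
  have h := L.L2.pos u 0
  simpa using h

theorem cs (a b : W) : (L.ip a b) ^ 2 ≤ L.ip a a * L.ip b b :=
  LinearMap.BilinForm.apply_sq_le_of_symm L.ip L.nonneg ⟨fun a b => L.symm a b⟩ a b

theorem ip_comm' (a b : W) : L.ip a b = L.ip b a := L.symm a b

/-- the raising part -/
abbrev upp (L : H662.Lad W) (p : ℝ) : W →ₗ[ℝ] W := up L.X L.D (dim L) p

/-- the lowering part -/
abbrev dnn (L : H662.Lad W) (p : ℝ) : W →ₗ[ℝ] W := dn L.X L.D (dim L) p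

section deg

variable (hn : 4 < dim L)
include hn

theorem Deg.up {p : ℝ} {u : W} (h : Deg L p u) : Deg L (p + 1) (upp L p u) :=
  T_up (relD L) h

theorem Deg.dn {p : ℝ} {u : W} (h : Deg L p u) : Deg L (p - 1) (dnn L p u) :=
  T_dn (relD L) h

theorem X_split {p : ℝ} (hp : 0 ≤ p) (u : W) : upp L p u + dnn L p u = L.X u :=
  up_add_dn (by intro h; linarith)

theorem deg_orth {p r : ℝ} {u v : W} (hu : Deg L p u) (hv : Deg L r v) (h1 : p ≠ r)
    (h2 : 0 ≤ p + r) : L.ip u v = 0 :=
  D_orth L hu hv (ev_ne h1 (by intro h; linarith))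

theorem adj_up {p : ℝ} (hp : 0 ≤ p) {u w : W} (hu : Deg L p u) (hw : Deg L (p + 1) w) :
    L.ip (upp L p u) w = -L.ip u (dnn L (p + 1) w) := by
  have h1 := L.skew u w
  rw [← X_split hn hp u, ← X_split hn (by linarith : (0 : ℝ) ≤ p + 1) w] at h1
  simp only [map_add, LinearMap.add_apply] at h1
  have h2 : L.ip (dnn L p u) w = 0 :=
    deg_orth hn (hu.dn hn) hw (by intro h; linarith) (by linarith)
  have h3 : L.ip u (upp L (p + 1) w) = 0 :=
    deg_orth hn hu (hw.up hn) (by intro h; linarith) (by linarith)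
  rw [h2, h3] at h1
  linarith

/-- the norm identity -/
theorem norm_id {lam : ℝ} (hlam : ∀ f, L.Lam f = lam • f) {p : ℝ} (hp : 1 ≤ p ∨ p = 0)
    {u : W} (hu : Deg L p u) (hz : p = 0 → dnn L p u = 0) :
    (2 * p + dim L) * L.ip (upp L p u) (upp L p u) =
      (2 * p + dim L - 4) * L.ip (dnn L p u) (dnn L p u)
      + (lam + 2 * ev (dim L) p) * L.ip u u + 6 * L.ip (L.L2.Δ u) u := by
  have hp0 : 0 ≤ p := by
    rcases hp with h | h
    · linarith
    · rw [h]
  have h1 := quad_eq (relD L) hu (by intro h; linarith) (by intro h; linarith)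
    (by intro h; linarith)
  have h2 := lam_eq L u
  rw [h1, hlam] at h2
  have h3 : L.ip (upp L p u) (upp L p u) = -L.ip (dnn L (p + 1) (upp L p u)) u := by
    rw [adj_up hn hp0 hu (hu.up hn), ip_comm' u]
  have h4 : L.ip (dnn L p u) (dnn L p u) = -L.ip (upp L (p - 1) (dnn L p u)) u := by
    rcases hp with hp1 | hp1
    · have h5 := adj_up hn (by linarith : (0 : ℝ) ≤ p - 1) (hu.dn hn)
        (w := u) (by rw [sub_add_cancel]; exact hu)
      rw [sub_add_cancel] at h5
      rw [h5, neg_neg]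
    · rw [hz hp1]; simp
  have h6 := congrArg (fun z => L.ip z u) h2
  have hDu : L.D u = ev (dim L) p • u := hu
  simp only [map_add, map_sub, map_smul, LinearMap.add_apply, LinearMap.sub_apply,
    LinearMap.smul_apply, smul_eq_mul, hDu] at h6
  rw [h3, h4]
  change -(2 * p + dim L) * L.ip (dnn L (p + 1) (upp L p u)) u
    + (2 * p + dim L - 4) * L.ip (upp L (p - 1) (dnn L p u)) u - _ - _ = _ at h6
  linarith

theorem dn_zero (hdef : ∀ f, L.ip f f = 0 → f = 0) {u : W} (hu : Deg L 0 u) :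
    dnn L 0 u = 0 := by
  have h1 : L.D (dnn L 0 u) = ev (dim L) (0 - 1) • dnn L 0 u := hu.dn hn
  have h2 : 0 ≤ L.ip (L.D (dnn L 0 u)) (dnn L 0 u) := by
    rw [Lad.D_apply, map_add, LinearMap.add_apply]
    exact add_nonneg (D1_nonneg _) (D2_nonneg _)
  rw [h1, map_smul, LinearMap.smul_apply, smul_eq_mul] at h2
  refine hdef _ (le_antisymm ?_ (L.nonneg _))
  have h3 : ev (dim L) (0 - 1) < 0 := by unfold ev; linarith
  by_contra h4
  push Not at h4
  have := mul_neg_of_neg_of_pos h3 h4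
  linarith

/-- the lowering part is bounded by the raising part one degree below -/
theorem dn_le_of_up {K : ℝ} (hK : 0 ≤ K) {p : ℝ} (hp : 0 ≤ p)
    (h : ∀ u, Deg L p u → L.ip (upp L p u) (upp L p u) ≤ K * L.ip u u) {w : W}
    (hw : Deg L (p + 1) w) : L.ip (dnn L (p + 1) w) (dnn L (p + 1) w) ≤ K * L.ip w w := by
  set z := dnn L (p + 1) w with hz
  have hzd : Deg L p z := by
    have := hw.dn hn
    rwa [add_sub_cancel_right] at this
  have h1 := adj_up hn hp hzd hw
  have h2 : L.ip z z = -L.ip (upp L p z) w := by rw [h1, neg_neg]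
  have h3 := cs (L := L) (upp L p z) w
  have h4 := h z hzd
  have hw0 := L.nonneg w
  have hz0 := L.nonneg z
  have h5 : (L.ip z z) ^ 2 ≤ K * L.ip z z * L.ip w w := by
    rw [h2] at *
    rw [neg_sq]
    exact h3.trans (mul_le_mul_of_nonneg_right h4 hw0)
  rcases hz0.lt_or_eq with h6 | h6
  · have h7 : L.ip z z * L.ip z z ≤ L.ip z z * (K * L.ip w w) := by nlinarith
    exact le_of_mul_le_mul_left h7 h6
  · rw [← h6]; positivity

/-- the bound of the raising part -/
theorem up_le (hdef : ∀ f, L.ip f f = 0 → f = 0) {lam : ℝ} (hlam : ∀ f, L.Lam f = lam • f)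
    (p : ℕ) : ∀ u, Deg L (p : ℝ) u →
      L.ip (upp L p u) (upp L p u) ≤ ((|lam| + 4) * ((p : ℝ) + 1) ^ 2) * L.ip u u := by
  have hl := le_abs_self lam
  have hl0 := abs_nonneg lam
  have hΔ : ∀ (p : ℝ) (u : W), Deg L p u → L.ip (L.L2.Δ u) u ≤ ev (dim L) p * L.ip u u := by
    intro p u hu
    have h1 : L.ip (L.D u) u = ev (dim L) p * L.ip u u := by
      rw [show L.D u = ev (dim L) p • u from hu, map_smul, LinearMap.smul_apply, smul_eq_mul]
    rw [Lad.D_apply, map_add, LinearMap.add_apply] at h1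
    linarith [D1_nonneg (L := L) u]
  induction p with
  | zero =>
    intro u hu
    rw [Nat.cast_zero] at hu ⊢
    have h1 := norm_id hn hlam (Or.inr rfl) hu (fun _ => dn_zero hn hdef hu)
    have h2 := hΔ 0 u hu
    have h3 : ev (dim L) 0 = 0 := by unfold ev; ring
    rw [dn_zero hn hdef hu, h3] at h1
    rw [h3, zero_mul] at h2
    simp only [map_zero, mul_zero, zero_add, add_zero] at h1
    have hu0 := L.nonneg u
    have hup := L.nonneg (upp L 0 u)
    have h4 : dim L * L.ip (upp L 0 u) (upp L 0 u) ≤ lam * L.ip u u := by linarith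
    have h5 : L.ip (upp L 0 u) (upp L 0 u) ≤ dim L * L.ip (upp L 0 u) (upp L 0 u) := by
      have := mul_nonneg (by linarith : 0 ≤ dim L - 1) hup
      linarith
    have h6 : lam * L.ip u u ≤ (|lam| + 4) * L.ip u u :=
      mul_le_mul_of_nonneg_right (by linarith) hu0
    calc L.ip (upp L 0 u) (upp L 0 u) ≤ (|lam| + 4) * L.ip u u := by linarith
      _ = _ := by ring
  | succ p ih =>
    intro u hu
    have hp : (((p + 1 : ℕ) : ℝ)) = (p : ℝ) + 1 := by push_cast; ring
    rw [hp] at hu ⊢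
    have hp0 : (0 : ℝ) ≤ p := Nat.cast_nonneg p
    have h1 := norm_id hn hlam (Or.inl (by linarith)) hu (fun h => by
      exfalso; linarith)
    have h2 := hΔ _ u hu
    have h3 := dn_le_of_up hn (by positivity) hp0 ih hu
    have hu0 := L.nonneg u
    generalize L.ip (upp L ((p : ℝ) + 1) u) (upp L ((p : ℝ) + 1) u) = a at h1 ⊢
    generalize L.ip (dnn L ((p : ℝ) + 1) u) (dnn L ((p : ℝ) + 1) u) = b at h1 h3
    generalize L.ip (L.L2.Δ u) u = c at h1 h2
    generalize L.ip u u = x at *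
    generalize dim L = n at *
    generalize (p : ℝ) = q at *
    have hq : 0 < 2 * (q + 1) + n := by linarith
    have e1 : (2 * (q + 1) + n) * a ≤ (2 * (q + 1) + n) *
        ((|lam| + 4) * (q + 1 + 1) ^ 2 * x) := by
      have b1 : (2 * (q + 1) + n - 4) * b ≤ (2 * (q + 1) + n) *
          ((|lam| + 4) * (q + 1) ^ 2 * x) := by
        have c1 : (2 * (q + 1) + n - 4) * b ≤ (2 * (q + 1) + n - 4) *
            ((|lam| + 4) * (q + 1) ^ 2 * x) := mul_le_mul_of_nonneg_left h3 (by linarith)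
        have c2 : 0 ≤ (|lam| + 4) * (q + 1) ^ 2 * x := by positivity
        linarith
      have b2 : (lam + 8 * ev n (q + 1)) * x ≤
          (2 * (q + 1) + n) * ((|lam| + 4) * (2 * (q + 1) + 1) * x) := by
        have c1 : lam + 8 * ev n (q + 1) ≤
            (2 * (q + 1) + n) * ((|lam| + 4) * (2 * (q + 1) + 1)) := by
          unfold ev
          have d1 : 0 ≤ |lam| * ((2 * (q + 1) + n) * (2 * (q + 1) + 1) - 1) := by
            refine mul_nonneg hl0 ?_
            nlinarith
          nlinarith [mul_nonneg hp0 (by linarith : 0 ≤ n - 4), sq_nonneg q]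
        have c2 := mul_le_mul_of_nonneg_right c1 hu0
        linarith
      have b3 : (2 * (q + 1) + n) * ((|lam| + 4) * (q + 1 + 1) ^ 2 * x) =
          (2 * (q + 1) + n) * ((|lam| + 4) * (q + 1) ^ 2 * x)
          + (2 * (q + 1) + n) * ((|lam| + 4) * (2 * (q + 1) + 1) * x) := by ring
      rw [b3]
      linarith
    exact le_of_mul_le_mul_left e1 hq

theorem dn_le (hdef : ∀ f, L.ip f f = 0 → f = 0) {lam : ℝ} (hlam : ∀ f, L.Lam f = lam • f)
    (p : ℕ) (u : W) (hu : Deg L ((p : ℝ) + 1) u) :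
    L.ip (dnn L ((p : ℝ) + 1) u) (dnn L ((p : ℝ) + 1) u) ≤
      ((|lam| + 4) * ((p : ℝ) + 1) ^ 2) * L.ip u u :=
  dn_le_of_up hn (by positivity) (Nat.cast_nonneg p) (up_le hn hdef hlam p) hu

end deg

end Vale.Agent.P207.H316
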