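import Vale.Agent.P207.Low.Kfun
import Vale.Agent.P207.H824.Slice
import Vale.Agent.P207.H662.ScT

/-!
# P207, block POS: the part of type `(2,2)` of `L_W g` controls `L_W g`
-/

open Finset

set_option linter.unusedSectionVars false

noncomputable section

namespace Vale.Agent.P207.H316

open Vale.Agent.P207.H442 Vale.Agent.P207.H662 Vale.Agent.P207 Vale.Agent.P207.H469
  Vale.Agent.P207.H546 Vale.Agent.P207.H571 Vale.Agent.P207.H824 Vale.Agent.P207.Low

/-! ### the ladder inequality -/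

section lad

variable {W : Type*} [AddCommGroup W] [Module ℝ W] (L : Lad W)

/-- `|H_2 u|² ≥ 0` for a function of leaf degree one -/
theorem lad_ineq {u a c : W} {d' : ℝ} (hu : L.L2.Δ u = L.d • u) (hX : L.X u = c + a)
    (hc : L.L2.Δ c = 0) (ha : L.L2.Δ a = d' • a) (hd' : d' ≠ 0) :
    L.d * (L.ip c c + L.ip a a) + 4 * L.d * L.ip u u ≤ d' * L.ip a a := by
  have hpos := L.L2.pos 0 u
  simp only [map_zero, LinearMap.zero_apply, mul_zero, sub_zero, zero_add] at hpos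
  have hC := L.C2_eq u
  rw [Lad1.C_apply] at hC
  have h1 := congrArg (fun z => L.ip z u) hC
  simp only [map_add, map_sub, map_smul, LinearMap.add_apply, LinearMap.sub_apply,
    LinearMap.smul_apply, smul_eq_mul] at h1
  rw [hu] at h1
  simp only [map_smul, LinearMap.smul_apply, smul_eq_mul] at h1
  -- the inner products
  have e1 : L.ip (L.X (L.X u)) u = -L.ip (L.X u) (L.X u) := L.skew _ _
  have e2 : L.ip (L.X (L.L2.Δ (L.X u))) u = -L.ip (L.L2.Δ (L.X u)) (L.X u) := L.skew _ _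
  have e3 : L.ip (L.L2.Δ (L.X (L.X u))) u = -(L.d * L.ip (L.X u) (L.X u)) := by
    rw [L.L2.Δ_symm, hu, map_smul, smul_eq_mul, e1]; ring
  have hca : L.ip c a = 0 := by
    have h2 := L.L2.Δ_symm c a
    rw [hc, ha, map_zero, LinearMap.zero_apply, map_smul, smul_eq_mul] at h2
    rcases mul_eq_zero.1 h2.symm with h3 | h3
    · exact absurd h3 hd'
    · exact h3
  have hac : L.ip a c = 0 := by rw [L.symm]; exact hca
  have e4 : L.ip (L.X u) (L.X u) = L.ip c c + L.ip a a := by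
    rw [hX]
    simp only [map_add, LinearMap.add_apply, hca, hac]
    ring
  have e5 : L.ip (L.L2.Δ (L.X u)) (L.X u) = d' * L.ip a a := by
    have e6 : L.L2.Δ (c + a) = d' • a := by rw [map_add, hc, ha, zero_add]
    rw [hX, e6]
    simp only [map_add, map_smul, LinearMap.smul_apply, smul_eq_mul, hac]
    ring
  rw [e1, e2, e3, e4, e5] at h1
  linarith

end lad

variable {m : ℕ} {A : Type*} [CommRing A] [Algebra ℝ A] {C : FrCalc (m + 1) A}
  {I : A →ₗ[ℝ] ℝ} {d : ℝ} (h : Rk1 C d) (hI : C.IsInt I) (hp : ∀ f, 0 ≤ I (f * f))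

/-- the function `W_0` of a vector field -/
def uB {W : Fin (m + 1) → A} (hW : C.T1 W) : h.sys.B :=
  ⟨W 0, fun i j => by
    change C.V i.succ j.succ (W 0) = 0
    rw [hW]
    simp [ac, Fin.succ_ne_zero]⟩

theorem X_uB {W : Fin (m + 1) → A} (hW : C.T1 W) :
    (h.lad hI hp).X (uB h hW) = h.fB (T2_Lg hW) := by
  apply Subtype.ext
  change C.H 0 (W 0) = (1 / 2 : ℝ) • (C.H 0 (W 0) + C.H 0 (W 0))
  rw [← two_smul ℝ (C.H 0 (W 0)), smul_smul]
  norm_num

/-- the leaf Laplacian of `W_0` -/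
theorem Dq_T1 {b c₀ : ℝ} (hR : RankOne C b c₀) {W : Fin (m + 1) → A} (hW : C.T1 W) :
    KF.Dq C (KF.PP C b) (W 0) = (NN (m + 1) b c₀ - 1) • W 0 := by
  have h1 : ∀ i j, KF.PP C b i j * C.V i 0 (C.V j 0 (W 0)) =
      -(if i = j then KF.PP C b i i * W 0 else 0) := by
    intro i j
    by_cases hj : j = 0
    · subst hj
      rw [KF.PP_zero_right, zero_mul]
      by_cases hi : i = 0
      · rw [if_pos hi, hi, KF.PP_zero_right, zero_mul, neg_zero]
      · rw [if_neg hi, neg_zero]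
    by_cases hi : i = 0
    · subst hi
      rw [KF.PP_zero_left, zero_mul, if_neg (fun h => hj h.symm), neg_zero]
    · rw [KF.V_T1 hW hj, KF.V_T1' hW hj]
      by_cases hij : i = j
      · subst hij
        rw [if_pos rfl, if_pos rfl]
        ring
      · rw [if_neg hij, if_neg hij]
        simp
  unfold KF.Dq
  simp only [h1, Finset.sum_neg_distrib, Finset.sum_ite_eq, Finset.mem_univ, if_true, neg_neg]
  rw [← Finset.sum_mul, KF.tr_PP hR, smul_mul_assoc, one_mul]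

theorem D2_uB (hR : RankOne C 2 (m + 3 * d)) {W : Fin (m + 1) → A} (hW : C.T1 W) :
    (h.lad hI hp).L2.Δ (uB h hW) = (h.lad hI hp).d • uB h hW := by
  apply Subtype.ext
  rw [D2_coe]
  change KF.Dq C (KF.PP C 2) (W 0) = d • W 0
  rw [Dq_T1 hR hW, NN_two]
  congr 1
  ring

include h hI hp in
/-- **hco**, in the normalised calculus -/
theorem hco_two (hd : 0 < d) (hR : RankOne C 2 (m + 3 * d)) {W : Fin (m + 1) → A}
    (hW : C.T1 W) :
    d / (2 * d + 2) * B2 I (Lg C W) (Lg C W) ≤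
      B2 I (k22 C 2 (m + 3 * d) (Lg C W)) (k22 C 2 (m + 3 * d) (Lg C W)) := by
  set k : Fin (m + 1) → Fin (m + 1) → A := Lg C W with hk
  have hT : C.T2 k := T2_Lg hW
  have hs : ∀ i j, k i j = k j i := Lg_symm W
  set L := h.lad hI hp with hL
  -- the ladder inequality
  have ht1 : L.L2.Δ (phiB h hT + twoB h hT) = 0 := by
    rw [map_add, (typ_phi h hI hp hT).D2, (typ_two h hI hp hR hT hs).D2]
    simp
  have ht2 : L.L2.Δ (ttB h hT) = (2 * (2 + d - 1)) • ttB h hT := (typ_tt h hI hp hR hT hs).D2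
  have hineq := lad_ineq L (D2_uB h hI hp hR hW) (a := ttB h hT)
    (c := phiB h hT + twoB h hT) (by rw [X_uB h hI hp hW]; exact fB_eq h hT) ht1 ht2 (by
      have : 0 < 2 * (2 + d - 1) := by linarith
      exact this.ne')
  have hLd : L.d = d := rfl
  rw [hLd] at hineq
  have hu := L.nonneg (uB h hW)
  -- the norms
  have n1 : L.ip (ttB h hT) (ttB h hT) =
      1 / 4 * I (k22 C 2 (m + 3 * d) k 0 0 * k22 C 2 (m + 3 * d) k 0 0) := by
    change I (((1 / 2 : ℝ) • k22 C 2 (m + 3 * d) k 0 0) *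
      ((1 / 2 : ℝ) • k22 C 2 (m + 3 * d) k 0 0)) = _
    rw [smul_mul_smul_comm, map_smul, smul_eq_mul]
    norm_num
  have n2 : L.ip (phiB h hT + twoB h hT) (phiB h hT + twoB h hT) =
      1 / 4 * I (k00 (m + 1) k 0 0 * k00 (m + 1) k 0 0)
      + 1 / 4 * I (k20 C 2 (m + 3 * d) k 0 0 * k20 C 2 (m + 3 * d) k 0 0) := by
    change I (((1 / 2 : ℝ) • k00 (m + 1) k 0 0 + (1 / 2 : ℝ) • k20 C 2 (m + 3 * d) k 0 0) *
      ((1 / 2 : ℝ) • k00 (m + 1) k 0 0 + (1 / 2 : ℝ) • k20 C 2 (m + 3 * d) k 0 0)) = _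
    have h0 := KF.I_00_20 hR hI hT hT hs hs
    have e : ((1 / 2 : ℝ) • k00 (m + 1) k 0 0 + (1 / 2 : ℝ) • k20 C 2 (m + 3 * d) k 0 0) *
      ((1 / 2 : ℝ) • k00 (m + 1) k 0 0 + (1 / 2 : ℝ) • k20 C 2 (m + 3 * d) k 0 0) =
      (1 / 4 : ℝ) • (k00 (m + 1) k 0 0 * k00 (m + 1) k 0 0)
      + (1 / 4 : ℝ) • (k20 C 2 (m + 3 * d) k 0 0 * k20 C 2 (m + 3 * d) k 0 0)
      + (1 / 2 : ℝ) • (k00 (m + 1) k 0 0 * k20 C 2 (m + 3 * d) k 0 0) := by
      simp only [mul_add, add_mul, smul_mul_smul_comm, mul_comm (k20 C 2 (m + 3 * d) k 0 0)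
        (k00 (m + 1) k 0 0)]
      module
    rw [e, map_add, map_add, map_smul, map_smul, map_smul, h0, smul_zero, add_zero, smul_eq_mul,
      smul_eq_mul]
  have hB : ∀ l : Fin (m + 1) → Fin (m + 1) → A, B2 I l l = I (ip l l) := by
    intro l
    rw [B2_apply, ip, map_sum]
    exact Finset.sum_congr rfl fun i _ => by rw [map_sum]
  have p1 := KF.I_ip_22 hR hI hT hT hs hs
  have p2 := KF.I_ip_20 hR hI hT hT hs hs
  have p3 := congrArg I (KF.ip_k00_k00 k k)
  rw [map_smul, smul_eq_mul] at p3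
  have p4 := congrArg I (hR.ip_types hs hs)
  rw [map_add, map_add] at p4
  rw [hB, hB, p4, p1, p2, p3]
  rw [n1, n2] at hineq
  have q1 := hp (k00 (m + 1) k 0 0)
  have q2 := hp (k20 C 2 (m + 3 * d) k 0 0)
  have q3 := hp (k22 C 2 (m + 3 * d) k 0 0)
  generalize I (k00 (m + 1) k 0 0 * k00 (m + 1) k 0 0) = x at *
  generalize I (k20 C 2 (m + 3 * d) k 0 0 * k20 C 2 (m + 3 * d) k 0 0) = y at *
  generalize I (k22 C 2 (m + 3 * d) k 0 0 * k22 C 2 (m + 3 * d) k 0 0) = w at *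
  generalize L.ip (uB h hW) (uB h hW) = v at *
  have hineq2 : d * (x + y) ≤ (d + 2) * w := by
    have : 0 ≤ 4 * d * v := by positivity
    linarith
  push_cast
  set N : ℝ := (m : ℝ) + 1 with hN
  have hN1 : 0 < N := by positivity
  have hN2 : 1 ≤ N := by
    have : (0 : ℝ) ≤ m := Nat.cast_nonneg m
    linarith
  have e1 : N * x ≤ N * (N + 2) / 2 * x := by
    have : 0 ≤ N * (N + 2) / 2 - N := by nlinarith
    nlinarith
  have e2 : d * (N * x + N * (N + 2) / 2 * y + N * (N + 2) / 2 * w) ≤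
      (2 * d + 2) * (N * (N + 2) / 2 * w) := by
    have e3 : N * (N + 2) / 2 * (d * (x + y)) ≤ N * (N + 2) / 2 * ((d + 2) * w) :=
      mul_le_mul_of_nonneg_left hineq2 (by positivity)
    have e4 : d * (N * x) ≤ d * (N * (N + 2) / 2 * x) := mul_le_mul_of_nonneg_left e1 hd.le
    linarith
  rw [div_mul_eq_mul_div, div_le_iff₀ (by linarith)]
  linarith

/-- **hco**, before the scaling -/
theorem hco_of {b c₀ : ℝ} {C : FrCalc (m + 1) A} (hb : 0 < b) (hd : 0 < d) (hI : C.IsInt I)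
    (hp : ∀ f, 0 ≤ I (f * f)) (h : Rk1 (sc C (2 / b)) d) (hc : 2 / b * (2 / b) * c₀ = m + 3 * d)
    (hR : RankOne (sc C (2 / b)) 2 (m + 3 * d)) {W : Fin (m + 1) → A} (hW : C.T1 W) :
    d / (2 * d + 2) * B2 I (Lg C W) (Lg C W) ≤
      B2 I (k22 C b c₀ (Lg C W)) (k22 C b c₀ (Lg C W)) := by
  have h1 := hco_two (C := sc C (2 / b)) h (sc_IsInt C _ hI) hp hd hR (W := W) hW
  have e1 : Lg (sc C (2 / b)) W = (2 / b) • Lg C W := by
    funext i j
    unfold Lg
    rw [Pi.smul_apply, Pi.smul_apply, smul_add]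
    rfl
  rw [← hc, sc_k22 C hb, e1, map_smul, map_smul, map_smul, LinearMap.smul_apply, smul_eq_mul,
    smul_eq_mul, map_smul, map_smul, LinearMap.smul_apply, smul_eq_mul, smul_eq_mul] at h1
  have h2 : 0 < (2 / b) * (2 / b) := by positivity
  refine le_of_mul_le_mul_left ?_ h2
  linarith

end Vale.Agent.P207.H316
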