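import Vale.Agent.P207.H571.Inv
import Vale.Agent.P207.Kat.Q

/-!
# P207, block POS (assembly), the high frequency half

For a divergence free symmetric 2-tensor `k` with `cas k = -lam k`, `lam` large, the single test
field `y_i = -(z/lam) H_i k_00` gives `Q_y(k) ≥ c |k|²`.
-/

set_option linter.unusedSectionVars false

noncomputable section

namespace Vale.Agent.P207.H316

open Finset H442 H442.FrCalc

variable {n : ℕ} {A : Type*} [CommRing A] [Algebra ℝ A] {C : FrCalc n A}

/-- positivity and boundedness of the integral -/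
structure PosInt (I : A →ₗ[ℝ] ℝ) : Prop where
  pos : ∀ f, 0 ≤ I (f * f)
  bd : ∀ φ : A, ∃ B : ℝ, 0 ≤ B ∧ ∀ f, I ((φ * f) * (φ * f)) ≤ B * I (f * f)

/-- the square of the `L²` norm -/
def sq (I : A →ₗ[ℝ] ℝ) (f : A) : ℝ := I (f * f)

variable {I : A →ₗ[ℝ] ℝ}

namespace PosInt

variable (hp : PosInt I)
include hp

theorem sq_nonneg (f : A) : 0 ≤ sq I f := hp.pos f

theorem young (θ : ℝ) (f g : A) : 2 * θ * I (f * g) ≤ θ ^ 2 * sq I f + sq I g := by
  have h := hp.pos (θ • f - g)
  have e : (θ • f - g) * (θ • f - g) = (θ ^ 2) • (f * f) - (2 * θ) • (f * g) + g * g := by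
    simp only [sub_mul, mul_sub, smul_mul_assoc, mul_smul_comm, mul_comm g f]
    module
  rw [e, map_add, map_sub, map_smul, map_smul, smul_eq_mul, smul_eq_mul] at h
  unfold sq
  linarith

theorem abs_I_le (f g : A) : |I (f * g)| ≤ (1 / 2) * (sq I f + sq I g) := by
  rw [_root_.abs_le]
  have h1 := hp.young 1 f g
  have h2 := hp.young (-1) f g
  constructor <;> nlinarith

theorem sq_add_le (f g : A) : sq I (f + g) ≤ 2 * (sq I f + sq I g) := by
  have e : (f + g) * (f + g) = f * f + (2 : ℝ) • (f * g) + g * g := by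
    rw [two_smul]; ring
  have h := hp.young 1 f g
  unfold sq at *
  rw [e, map_add, map_add, map_smul, smul_eq_mul]
  linarith

theorem sq_sub_le (f g : A) : sq I (f - g) ≤ 2 * (sq I f + sq I g) := by
  have h := hp.sq_add_le f (-g)
  have e : sq I (-g) = sq I g := by unfold sq; rw [neg_mul_neg]
  rw [e, ← sub_eq_add_neg] at h
  exact h

theorem sq_add_le' {η : ℝ} (hη : 0 < η) (f g : A) :
    sq I (f + g) ≤ (1 + η) * sq I f + (1 + 1 / η) * sq I g := by
  have e : (f + g) * (f + g) = f * f + (2 : ℝ) • (f * g) + g * g := by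
    rw [two_smul]; ring
  have h := hp.young η f g
  have h3 : 2 * I (f * g) ≤ η * sq I f + (1 / η) * sq I g := by
    have h4 : 2 * I (f * g) = (1 / η) * (2 * η * I (f * g)) := by
      field_simp
    rw [h4]
    calc (1 / η) * (2 * η * I (f * g)) ≤ (1 / η) * (η ^ 2 * sq I f + sq I g) :=
          mul_le_mul_of_nonneg_left h (by positivity)
      _ = _ := by field_simp
  have h5 : sq I (f + g) = sq I f + 2 * I (f * g) + sq I g := by
    unfold sq
    rw [e, map_add, map_add, map_smul, smul_eq_mul]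
  rw [h5]
  linarith

end PosInt

theorem sq_zero : sq I (0 : A) = 0 := by unfold sq; simp

theorem sq_neg (f : A) : sq I (-f) = sq I f := by unfold sq; rw [neg_mul_neg]

theorem sq_smul (c : ℝ) (f : A) : sq I (c • f) = c ^ 2 * sq I f := by
  unfold sq
  rw [smul_mul_smul_comm, map_smul, smul_eq_mul, pow_two]

theorem sq_ite (hp : PosInt I) (P : Prop) [Decidable P] (f : A) :
    sq I (if P then f else 0) ≤ sq I f := by
  split_ifs
  · exact le_rfl
  · rw [sq_zero]; exact hp.sq_nonneg f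

theorem sq_ac_le (hp : PosInt I) (a b : Fin n) (T : Fin n → A) (i : Fin n) :
    sq I (ac a b T i) ≤ 4 * ∑ j, sq I (T j) := by
  unfold ac
  have h1 := hp.sq_sub_le (if b = i then T a else 0) (if a = i then T b else 0)
  have h2 := sq_ite hp (b = i) (T a)
  have h3 := sq_ite hp (a = i) (T b)
  have h4 : sq I (T a) ≤ ∑ j, sq I (T j) :=
    Finset.single_le_sum (f := fun j => sq I (T j)) (fun _ _ => hp.sq_nonneg _) (mem_univ a)
  have h5 : sq I (T b) ≤ ∑ j, sq I (T j) :=
    Finset.single_le_sum (f := fun j => sq I (T j)) (fun _ _ => hp.sq_nonneg _) (mem_univ b)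
  linarith

/-- `L²` norms of tensors -/
def n2 (I : A →ₗ[ℝ] ℝ) (k : Fin n → Fin n → A) : ℝ := ∑ i, ∑ j, sq I (k i j)

/-- `L²` norm of a tensor of rank three -/
def n3 (I : A →ₗ[ℝ] ℝ) (S : Fin n → Fin n → Fin n → A) : ℝ := ∑ i, ∑ j, ∑ l, sq I (S i j l)

theorem n2_nonneg (hp : PosInt I) (k : Fin n → Fin n → A) : 0 ≤ n2 I k :=
  Finset.sum_nonneg fun _ _ => Finset.sum_nonneg fun _ _ => hp.sq_nonneg _

theorem row_le (hp : PosInt I) (k : Fin n → Fin n → A) (i : Fin n) :
    ∑ j, sq I (k i j) ≤ n2 I k :=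
  Finset.single_le_sum (f := fun i => ∑ j, sq I (k i j))
    (fun _ _ => Finset.sum_nonneg fun _ _ => hp.sq_nonneg _) (mem_univ i)

theorem col_le (hp : PosInt I) (k : Fin n → Fin n → A) (j : Fin n) :
    ∑ i, sq I (k i j) ≤ n2 I k := by
  unfold n2
  rw [Finset.sum_comm]
  exact Finset.single_le_sum (f := fun j => ∑ i, sq I (k i j))
    (fun _ _ => Finset.sum_nonneg fun _ _ => hp.sq_nonneg _) (mem_univ j)

theorem entry_le (hp : PosInt I) (k : Fin n → Fin n → A) (i j : Fin n) :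
    sq I (k i j) ≤ n2 I k :=
  (Finset.single_le_sum (f := fun j => sq I (k i j)) (fun _ _ => hp.sq_nonneg _)
    (mem_univ j)).trans (row_le hp k i)

theorem sq_V2_le (hp : PosInt I) {k : Fin n → Fin n → A} (hk : C.T2 k) (a b i j : Fin n) :
    sq I (C.V a b (k i j)) ≤ 16 * n2 I k := by
  rw [hk a b i j]
  have h1 := hp.sq_add_le (ac a b (fun i => k i j) i) (ac a b (fun j => k i j) j)
  have h2 := sq_ac_le hp a b (fun i => k i j) i
  have h3 := sq_ac_le hp a b (fun j => k i j) j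
  have h4 := row_le hp k i
  have h5 := col_le hp k j
  linarith

theorem sum_sq_V2_le (hp : PosInt I) {k : Fin n → Fin n → A} (hk : C.T2 k) (i j : Fin n) :
    ∑ a, ∑ b, sq I (C.V a b (k i j)) ≤ (n : ℝ) ^ 2 * (16 * n2 I k) := by
  calc ∑ a, ∑ b, sq I (C.V a b (k i j)) ≤ ∑ _a : Fin n, ∑ _b : Fin n, 16 * n2 I k :=
        Finset.sum_le_sum fun a _ => Finset.sum_le_sum fun b _ => sq_V2_le hp hk a b i j
    _ = _ := by
        simp only [Finset.sum_const, Finset.card_univ, Fintype.card_fin, nsmul_eq_mul]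
        ring

theorem n3_slice1 (hp : PosInt I) (S : Fin n → Fin n → Fin n → A) (j l : Fin n) :
    ∑ i, sq I (S i j l) ≤ n3 I S := by
  unfold n3
  refine Finset.sum_le_sum fun i _ => ?_
  exact entry_le hp (fun j l => S i j l) j l

theorem n3_slice2 (hp : PosInt I) (S : Fin n → Fin n → Fin n → A) (i l : Fin n) :
    ∑ j, sq I (S i j l) ≤ n3 I S := by
  have h1 : ∑ j, sq I (S i j l) ≤ n2 I (fun j l => S i j l) := col_le hp (fun j l => S i j l) l
  refine h1.trans ?_
  exact Finset.single_le_sum (f := fun i => n2 I (fun j l => S i j l))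
    (fun i _ => n2_nonneg hp _) (mem_univ i)

theorem n3_slice3 (hp : PosInt I) (S : Fin n → Fin n → Fin n → A) (i j : Fin n) :
    ∑ l, sq I (S i j l) ≤ n3 I S := by
  have h1 : ∑ l, sq I (S i j l) ≤ n2 I (fun j l => S i j l) := row_le hp (fun j l => S i j l) j
  refine h1.trans ?_
  exact Finset.single_le_sum (f := fun i => n2 I (fun j l => S i j l))
    (fun i _ => n2_nonneg hp _) (mem_univ i)

theorem sq_V3_le (hp : PosInt I) {S : Fin n → Fin n → Fin n → A} (hS : C.T3 S)
    (a b i j l : Fin n) : sq I (C.V a b (S i j l)) ≤ 40 * n3 I S := by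
  rw [hS a b i j l]
  have h0 := hp.sq_add_le (ac a b (fun i => S i j l) i + ac a b (fun j => S i j l) j)
    (ac a b (fun l => S i j l) l)
  have h1 := hp.sq_add_le (ac a b (fun i => S i j l) i) (ac a b (fun j => S i j l) j)
  have h2 := sq_ac_le hp a b (fun i => S i j l) i
  have h3 := sq_ac_le hp a b (fun j => S i j l) j
  have h4 := sq_ac_le hp a b (fun l => S i j l) l
  have h5 := n3_slice1 hp S j l
  have h6 := n3_slice2 hp S i l
  have h7 := n3_slice3 hp S i j
  linarith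

theorem sum_sq_V3_le (hp : PosInt I) {S : Fin n → Fin n → Fin n → A} (hS : C.T3 S)
    (i j l : Fin n) :
    ∑ a, ∑ b, sq I (C.V a b (S i j l)) ≤ (n : ℝ) ^ 2 * (40 * n3 I S) := by
  calc ∑ a, ∑ b, sq I (C.V a b (S i j l)) ≤ ∑ _a : Fin n, ∑ _b : Fin n, 40 * n3 I S :=
        Finset.sum_le_sum fun a _ => Finset.sum_le_sum fun b _ => sq_V3_le hp hS a b i j l
    _ = _ := by
        simp only [Finset.sum_const, Finset.card_univ, Fintype.card_fin, nsmul_eq_mul]
        ring

/-- the energy identity up to a zero order term -/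
theorem exists_energy (hI : C.IsInt I) (hp : PosInt I) : ∃ B : ℝ, 0 ≤ B ∧ ∀ (f : A) (lam : ℝ),
    C.cas f = (-lam) • f →
      |∑ i, sq I (C.H i f) - lam * sq I f| ≤ B * ∑ a, ∑ b, sq I (C.V a b f) := by
  choose B hB0 hB using fun q : Fin n × Fin n × Fin n × Fin n =>
    hp.bd (C.R q.1 q.2.1 q.2.2.1 q.2.2.2)
  set Bs : ℝ := ∑ q, B q with hBs
  have hBle : ∀ q, B q ≤ Bs := fun q =>
    Finset.single_le_sum (f := B) (fun q _ => hB0 q) (mem_univ q)
  have hBs0 : 0 ≤ Bs := Finset.sum_nonneg fun q _ => hB0 q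
  refine ⟨(n : ℝ) ^ 4 * ((1 / 8) * (Bs + 1)), by positivity, fun f lam hf => ?_⟩
  set S : ℝ := ∑ a, ∑ b, sq I (C.V a b f) with hS
  have hS0 : 0 ≤ S := Finset.sum_nonneg fun a _ => Finset.sum_nonneg fun b _ => hp.sq_nonneg _
  have hle : ∀ a b, sq I (C.V a b f) ≤ S := fun a b =>
    (Finset.single_le_sum (f := fun b => sq I (C.V a b f)) (fun b _ => hp.sq_nonneg _)
      (mem_univ b)).trans
    (Finset.single_le_sum (f := fun a => ∑ b, sq I (C.V a b f))
      (fun a _ => Finset.sum_nonneg fun b _ => hp.sq_nonneg _) (mem_univ a))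
  have h1 : C.lap f = (-lam) • f + (1 / 4 : ℝ) • C.curv f := by
    have h2 : C.cas f = C.lap f - (1 / 4 : ℝ) • C.curv f := rfl
    rw [← hf, h2, sub_add_cancel]
  have h3 := hI.lap f f
  rw [h1, mul_add, mul_smul_comm, mul_smul_comm, map_add, map_smul, map_smul, smul_eq_mul,
    smul_eq_mul, hI.curv] at h3
  have h4 : ∑ i, sq I (C.H i f) - lam * sq I f =
      (1 / 4) * ∑ i, ∑ j, ∑ k, ∑ l, I (C.R i j k l * (C.V i j f * C.V k l f)) := by
    unfold sq
    linarith
  rw [h4, abs_mul, abs_of_nonneg (by norm_num : (0 : ℝ) ≤ 1 / 4)]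
  have h5 : ∀ i j k l, |I (C.R i j k l * (C.V i j f * C.V k l f))| ≤ (1 / 2) * ((Bs + 1) * S) := by
    intro i j k l
    rw [← mul_assoc]
    refine (hp.abs_I_le _ _).trans ?_
    have h6 : sq I (C.R i j k l * C.V i j f) ≤ B (i, j, k, l) * sq I (C.V i j f) :=
      hB (i, j, k, l) (C.V i j f)
    have h7 : B (i, j, k, l) * sq I (C.V i j f) ≤ Bs * S :=
      mul_le_mul (hBle _) (hle i j) (hp.sq_nonneg _) hBs0
    have h8 := hle k l
    linarith
  have h9 : |∑ i, ∑ j, ∑ k, ∑ l, I (C.R i j k l * (C.V i j f * C.V k l f))| ≤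
      (n : ℝ) ^ 4 * ((1 / 2) * ((Bs + 1) * S)) := by
    calc |∑ i, ∑ j, ∑ k, ∑ l, I (C.R i j k l * (C.V i j f * C.V k l f))|
        ≤ ∑ i, ∑ j, ∑ k, ∑ l, |I (C.R i j k l * (C.V i j f * C.V k l f))| := by
          refine (Finset.abs_sum_le_sum_abs _ _).trans (Finset.sum_le_sum fun i _ => ?_)
          refine (Finset.abs_sum_le_sum_abs _ _).trans (Finset.sum_le_sum fun j _ => ?_)
          refine (Finset.abs_sum_le_sum_abs _ _).trans (Finset.sum_le_sum fun k _ => ?_)
          exact Finset.abs_sum_le_sum_abs _ _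
      _ ≤ ∑ _i : Fin n, ∑ _j : Fin n, ∑ _k : Fin n, ∑ _l : Fin n, (1 / 2) * ((Bs + 1) * S) :=
          Finset.sum_le_sum fun i _ => Finset.sum_le_sum fun j _ => Finset.sum_le_sum fun k _ =>
            Finset.sum_le_sum fun l _ => h5 i j k l
      _ = _ := by
          simp only [Finset.sum_const, Finset.card_univ, Fintype.card_fin, nsmul_eq_mul]
          ring
  linarith

end Vale.Agent.P207.H316
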