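import Vale.Agent.P207.H316.High

/-!
# P207, block POS (assembly), the high frequency half: the identities
-/

set_option linter.unusedSectionVars false

noncomputable section

namespace Vale.Agent.P207.H316

open Finset H442 H442.FrCalc

variable {n : ℕ} [NeZero n] {A : Type*} [CommRing A] [Algebra ℝ A] {C : FrCalc n A}
  {I : A →ₗ[ℝ] ℝ}

/-- sums over all indices different from zero -/
theorem sum_ne_zero {B : Type*} [AddCommGroup B] (f : Fin n → B) :
    ∑ i, (if i = 0 then 0 else f i) = (∑ i, f i) - f 0 := by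
  have h : ∀ i, (if i = 0 then 0 else f i) = f i - (if i = 0 then f 0 else 0) := by
    intro i
    by_cases h : i = 0
    · rw [if_pos h, if_pos h, h, sub_self]
    · rw [if_neg h, if_neg h, sub_zero]
  simp only [h, Finset.sum_sub_distrib, Finset.sum_ite_eq', Finset.mem_univ, if_true]

variable (C) in
/-- the zero order term of the commutator -/
def rr (k : Fin n → Fin n → A) (i : Fin n) : A := ∑ c, C.R 0 i c 0 * k c 0

theorem comm_F {k : Fin n → Fin n → A} (hk : C.T2 k) (hs : ∀ i j, k i j = k j i) (i : Fin n) :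
    C.H 0 (C.H i (k 0 0)) = C.H i (C.H 0 (k 0 0)) + (2 : ℝ) • rr C k i := by
  rw [hk.comm 0 i 0 0, rr, two_smul, Finset.sum_add_distrib]
  congr 2
  exact Finset.sum_congr rfl fun c _ => by rw [hs 0 c]

/-- the first identity -/
theorem id_P (hI : C.IsInt I) {k : Fin n → Fin n → A} (hk : C.T2 k) (hs : ∀ i j, k i j = k j i)
    (hd : ∀ j, ∑ i, C.H i (k i j) = 0) :
    ∑ i, I (C.H 0 (k i 0) * C.H i (k 0 0)) = -(2 * ∑ i, I (k i 0 * rr C k i)) := by
  have h1 : ∀ i, I (C.H 0 (k i 0) * C.H i (k 0 0)) =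
      I (C.H i (k i 0) * C.H 0 (k 0 0)) - 2 * I (k i 0 * rr C k i) := by
    intro i
    rw [hI.H_mul, comm_F hk hs i, mul_add, mul_smul_comm, map_add, map_smul, smul_eq_mul,
      hI.mul_H i (k i 0)]
    ring
  simp only [h1, Finset.sum_sub_distrib, ← Finset.mul_sum]
  have h2 : ∑ i, I (C.H i (k i 0) * C.H 0 (k 0 0)) = 0 := by
    rw [← map_sum, ← Finset.sum_mul, hd 0, zero_mul, map_zero]
  rw [h2, zero_sub]

theorem V_zero_zero (S : Fin n → A) (i : Fin n) :
    ac i 0 S 0 = S i - (if i = 0 then S 0 else 0) := by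
  simp only [ac, if_true]

theorem V_i_zero (S : Fin n → A) (i : Fin n) :
    ac i 0 S i = (if i = 0 then S 0 else 0) - S 0 := by
  simp only [ac, if_true]
  congr 1
  by_cases h : i = 0
  · rw [if_pos h, if_pos h.symm, h]
  · rw [if_neg h, if_neg (fun h' => h h'.symm)]

/-- the fibre identity for `∇ k` -/
theorem id_S (hI : C.IsInt I) {k : Fin n → Fin n → A} (hk : C.T2 k) (hs : ∀ i j, k i j = k j i)
    (hd : ∀ j, ∑ i, C.H i (k i j) = 0) :
    (∑ i, I (C.H i (k 0 0) * C.H i (k 0 0))) + 2 * ∑ i, I (C.H 0 (k i 0) * C.H i (k 0 0)) =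
      (n + 4) * I (C.H 0 (k 0 0) * C.H 0 (k 0 0)) := by
  have hS := hk.nabla
  have h1 : ∀ i, C.V i 0 (C.H 0 (k 0 0) * C.H i (k 0 0)) =
      C.H i (k 0 0) * C.H i (k 0 0) + (2 : ℝ) • (C.H 0 (k i 0) * C.H i (k 0 0))
      - C.H 0 (k 0 0) * C.H 0 (k 0 0) + (2 : ℝ) • (C.H 0 (k 0 0) * C.H i (k i 0))
      - (if i = 0 then (4 : ℝ) • (C.H 0 (k 0 0) * C.H 0 (k 0 0)) else 0) := by
    intro i
    have e1 := hS i 0 0 0 0
    have e2 := hS i 0 i 0 0
    simp only [V_zero_zero, V_i_zero] at e1 e2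
    rw [Derivation.leibniz, e1, e2, smul_eq_mul, smul_eq_mul]
    rw [hs 0 i]
    by_cases h : i = 0
    · subst h
      simp only [if_true]
      have e3 : (4 : ℝ) • (C.H 0 (k 0 0) * C.H 0 (k 0 0)) =
        (2 : ℝ) • (C.H 0 (k 0 0) * C.H 0 (k 0 0)) + (2 : ℝ) • (C.H 0 (k 0 0) * C.H 0 (k 0 0)) := by
        rw [← add_smul]; norm_num
      rw [e3, two_smul]
      ring
    · simp only [if_neg h, two_smul]
      ring
  have h2 : ∑ i, I (C.V i 0 (C.H 0 (k 0 0) * C.H i (k 0 0))) = 0 :=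
    Finset.sum_eq_zero fun i _ => hI.ver i 0 _
  have h3 : ∑ i, I (C.H 0 (k 0 0) * C.H i (k i 0)) = 0 := by
    rw [← map_sum, ← Finset.mul_sum, hd 0, mul_zero, map_zero]
  simp only [h1, map_add, map_sub, map_smul, smul_eq_mul, apply_ite I, map_zero,
    Finset.sum_add_distrib, Finset.sum_sub_distrib, ← Finset.mul_sum, h3, Finset.sum_const,
    Finset.card_univ, Fintype.card_fin, nsmul_eq_mul, Finset.sum_ite_eq', Finset.mem_univ,
    if_true] at h2
  linarith

/-- the fibre identity for `k` -/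
theorem id_k (hI : C.IsInt I) {k : Fin n → Fin n → A} (hk : C.T2 k) (hs : ∀ i j, k i j = k j i) :
    (n : ℝ) * (n + 2) * sq I (k 0 0) = 2 * n2 I k + I ((∑ i, k i i) * ∑ i, k i i) := by
  have h1 : ∀ i, C.V i 0 (k 0 0 * k i 0) =
      (2 : ℝ) • (k i 0 * k i 0) - k 0 0 * k 0 0 + k 0 0 * k i i
      - (if i = 0 then (2 : ℝ) • (k 0 0 * k 0 0) else 0) := by
    intro i
    have e1 := hk i 0 0 0
    have e2 := hk i 0 i 0
    simp only [V_zero_zero, V_i_zero] at e1 e2
    rw [Derivation.leibniz, e1, e2, smul_eq_mul, smul_eq_mul]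
    rw [hs 0 i]
    by_cases h : i = 0
    · subst h
      simp only [if_true]
      ring
    · simp only [if_neg h, two_smul]
      ring
  have h2 : ∑ i, I (C.V i 0 (k 0 0 * k i 0)) = 0 :=
    Finset.sum_eq_zero fun i _ => hI.ver i 0 _
  have h3 : ∑ i, I (k 0 0 * k i i) = I (k 0 0 * ∑ i, k i i) := by
    rw [← map_sum, ← Finset.mul_sum]
  simp only [h1, map_add, map_sub, map_smul, smul_eq_mul, apply_ite I, map_zero,
    Finset.sum_add_distrib, Finset.sum_sub_distrib, ← Finset.mul_sum, h3, Finset.sum_const,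
    Finset.card_univ, Fintype.card_fin, nsmul_eq_mul, Finset.sum_ite_eq', Finset.mem_univ,
    if_true] at h2
  have h4 : (n : ℝ) * ∑ i, I (k i 0 * k i 0) = n2 I k := by
    have e := H571.avg_tr hI (H571.T2_mul_tr hk hk) 0
    rw [map_sum, map_sum] at e
    have e1 : ∑ i, I (k 0 i * k 0 i) = ∑ i, I (k i 0 * k i 0) :=
      Finset.sum_congr rfl fun i _ => by rw [hs 0 i]
    rw [e1] at e
    rw [e, n2]
    exact Finset.sum_congr rfl fun i _ => by rw [map_sum]; rfl
  have h5 : (n : ℝ) * I (k 0 0 * ∑ i, k i i) = I ((∑ i, k i i) * ∑ i, k i i) := by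
    have e := H571.avg_tr hI (hk.mul0 hk.tr) 0
    rw [← Finset.mul_sum] at e
    rw [← e, mul_comm (k 0 0)]
  rw [← h4, ← h5]
  unfold sq
  have h6 : (n + 2 : ℝ) * I (k 0 0 * k 0 0) = 2 * ∑ i, I (k i 0 * k i 0)
      + I (k 0 0 * ∑ i, k i i) := by linarith
  calc (n : ℝ) * (n + 2) * I (k 0 0 * k 0 0) = n * ((n + 2 : ℝ) * I (k 0 0 * k 0 0)) := by ring
    _ = _ := by rw [h6]; ring

end Vale.Agent.P207.H316
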