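import Vale.Agent.P207.H316.High2

/-!
# P207, block POS (assembly), the high frequency half: the bound
-/

set_option linter.unusedSectionVars false

noncomputable section

namespace Vale.Agent.P207.H316

open Finset H442 H442.FrCalc

/-- the real inequality, the term `D` -/
theorem real_D {m L K N0 φ g2 ρ D A0 B0 e q : ℝ} (hm : 1 ≤ m) (hL : 1 ≤ L)
    (hK : 0 ≤ K) (hN : 0 ≤ N0) (hφ0 : 0 ≤ φ) (hφ : φ ≤ N0)
    (hq : q = (m + 3) / (m + 4) ^ 2) (he : g2 = L * φ / (m + 4) + e) (he3 : e ≤ K * N0)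
    (hρ : ρ ≤ K * N0)
    (hD : D ≤ (1 + 1 / L) * (A0 - B0) + (1 + L) * (4 * ρ))
    (hA : A0 ≤ L * g2 + K * (L + K) * N0)
    (hB : 2 * (L / (m + 4)) * g2 - (L / (m + 4)) ^ 2 * φ ≤ B0) :
    D ≤ L ^ 2 * φ * q + L * (N0 * (1 + 12 * K + 2 * K ^ 2)) := by
  have hL0 : 0 < L := by linarith
  have hm4 : (0 : ℝ) < m + 4 := by linarith
  have hKN : 0 ≤ K * N0 := mul_nonneg hK hN
  have hL2 : 0 ≤ L := hL0.le
  have hq0 : 0 ≤ q := by rw [hq]; positivity
  have hq1 : q ≤ 1 := by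
    rw [hq, div_le_one (by positivity)]; nlinarith
  have hAB : A0 - B0 ≤ L ^ 2 * φ * q + L * (K * N0) + K * (L + K) * N0 := by
    have h1 : A0 - B0 ≤ L * g2 + K * (L + K) * N0 -
        (2 * (L / (m + 4)) * g2 - (L / (m + 4)) ^ 2 * φ) := by linarith
    have h2 : L * g2 + K * (L + K) * N0 - (2 * (L / (m + 4)) * g2 - (L / (m + 4)) ^ 2 * φ) =
        L ^ 2 * φ * q + L * (1 - 2 / (m + 4)) * e + K * (L + K) * N0 := by
      rw [he, hq]; field_simp; ring
    have h3 : L * (1 - 2 / (m + 4)) * e ≤ L * (K * N0) := by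
      have h4 : 0 ≤ 1 - 2 / (m + 4) := by
        rw [sub_nonneg, div_le_one hm4]; linarith
      have h5 : 1 - 2 / (m + 4) ≤ 1 := by
        have : 0 ≤ 2 / (m + 4) := by positivity
        linarith
      calc L * (1 - 2 / (m + 4)) * e ≤ L * (1 - 2 / (m + 4)) * (K * N0) :=
            mul_le_mul_of_nonneg_left he3 (mul_nonneg hL2 h4)
        _ ≤ L * 1 * (K * N0) :=
            mul_le_mul_of_nonneg_right (mul_le_mul_of_nonneg_left h5 hL2) hKN
        _ = _ := by ring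
    linarith
  have h1L : 1 / L ≤ 1 := by rw [div_le_one hL0]; exact hL
  have h1L0 : 0 ≤ 1 / L := by positivity
  have hLL : 1 / L * L = 1 := by field_simp
  have h1 : (1 + 1 / L) * (A0 - B0) ≤ (1 + 1 / L) *
      (L ^ 2 * φ * q + L * (K * N0) + K * (L + K) * N0) :=
    mul_le_mul_of_nonneg_left hAB (by positivity)
  generalize 1 / L = w at *
  have h2 : (1 + w) * (L ^ 2 * φ * q + L * (K * N0) + K * (L + K) * N0) = L ^ 2 * φ * q
      + (w * L) * L * (φ * q) + (1 + w) * (2 * L * (K * N0) + K ^ 2 * N0) := by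
    ring
  rw [hLL, one_mul] at h2
  have h3 : φ * q ≤ N0 := by
    calc φ * q ≤ φ * 1 := mul_le_mul_of_nonneg_left hq1 hφ0
      _ ≤ N0 := by linarith
  have h4 : (1 + w) * (2 * L * (K * N0) + K ^ 2 * N0) ≤
      2 * (2 * L * (K * N0) + L * (K ^ 2 * N0)) := by
    have h5 : 0 ≤ K ^ 2 * N0 := by positivity
    have h6 : K ^ 2 * N0 ≤ L * (K ^ 2 * N0) := by nlinarith
    have h7 : 0 ≤ 2 * L * (K * N0) + K ^ 2 * N0 := by positivity
    calc (1 + w) * (2 * L * (K * N0) + K ^ 2 * N0) ≤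
          (1 + 1) * (2 * L * (K * N0) + K ^ 2 * N0) :=
        mul_le_mul_of_nonneg_right (by linarith) h7
      _ ≤ _ := by linarith
  have h5 : (1 + L) * (4 * ρ) ≤ (1 + L) * (4 * (K * N0)) :=
    mul_le_mul_of_nonneg_left (by linarith) (by linarith)
  have h6 : (1 + L) * (4 * (K * N0)) ≤ 8 * L * (K * N0) := by nlinarith
  have h7 : L * (φ * q) ≤ L * N0 := mul_le_mul_of_nonneg_left h3 hL2
  rw [h2] at h1
  linarith

/-- the real inequality -/
theorem real_high {m z L K N0 φ g2 h2 κ ρ D A0 B0 X q : ℝ} (hm : 1 ≤ m) (hz : 0 ≤ z) (hL : 1 ≤ L)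
    (hK : 0 ≤ K) (hN : 0 ≤ N0) (hφ0 : 0 ≤ φ) (hφ : φ ≤ N0) (hb : |h2 - L * φ| ≤ K * N0)
    (hq : q = (m + 3) / (m + 4) ^ 2)
    (hc : h2 = (m + 4) * g2 + 2 * κ) (hκ : |κ| ≤ K * N0) (hρ : ρ ≤ K * N0)
    (hD : D ≤ (1 + 1 / L) * (A0 - B0) + (1 + L) * (4 * ρ))
    (hA : A0 ≤ L * g2 + K * (L + K) * N0)
    (hB : 2 * (L / (m + 4)) * g2 - (L / (m + 4)) ^ 2 * φ ≤ B0)
    (hX : X ≤ (z / L) ^ 2 * (K * h2)) :
    (z * ((m + 5) / (m + 4)) - z ^ 2 * q) * φ
      - (z * (m + 9) * K + z ^ 2 * (1 + 13 * K + 3 * K ^ 2)) * (1 / L) * N0 ≤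
      (z / L) * ((m + 5) * g2 + 4 * κ) - (z / L) ^ 2 * D - X := by
  have hL0 : 0 < L := by linarith
  have hm4 : (0 : ℝ) < m + 4 := by linarith
  have hKN : 0 ≤ K * N0 := mul_nonneg hK hN
  have hL2 : 0 ≤ L := hL0.le
  -- the error of `g2`
  obtain ⟨e, he⟩ : ∃ e, g2 = L * φ / (m + 4) + e := ⟨g2 - L * φ / (m + 4), by ring⟩
  have he2 : (m + 4) * e = (h2 - L * φ) - 2 * κ := by
    rw [hc, he]; field_simp; ring
  rw [_root_.abs_le] at hb hκ
  have hmK : 0 ≤ (m - 1) * (K * N0) := mul_nonneg (by linarith) hKN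
  have he3 : e ≤ K * N0 := by
    have : (m + 4) * e ≤ (m + 4) * (K * N0) := by rw [he2]; linarith [hb.2, hκ.1]
    exact le_of_mul_le_mul_left this hm4
  have he4 : -(K * N0) ≤ e := by
    have : (m + 4) * (-(K * N0)) ≤ (m + 4) * e := by rw [he2]; linarith [hb.1, hκ.2]
    exact le_of_mul_le_mul_left this hm4
  have hD2 := real_D hm hL hK hN hφ0 hφ hq he he3 hρ hD hA hB
  have hζ : 0 ≤ z / L := by positivity
  have hzL : z / L = z * (1 / L) := by ring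
  have hLL : 1 / L * L = 1 := by field_simp
  have hD3 : (z / L) ^ 2 * D ≤ z ^ 2 * q * φ
      + z ^ 2 * (1 / L) * (N0 * (1 + 12 * K + 2 * K ^ 2)) := by
    refine (mul_le_mul_of_nonneg_left hD2 (by positivity)).trans (le_of_eq ?_)
    rw [hzL]
    generalize 1 / L = w at hLL
    linear_combination (z ^ 2 * w * (N0 * (1 + 12 * K + 2 * K ^ 2))
      + z ^ 2 * φ * q * (w * L + 1)) * hLL
  have hX2 : X ≤ z ^ 2 * (1 / L) * ((K + K ^ 2) * N0) := by
    refine hX.trans ?_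
    have h1 : h2 ≤ L * ((1 + K) * N0) := by
      have h3 : L * φ ≤ L * N0 := mul_le_mul_of_nonneg_left hφ hL2
      have h4 : 0 ≤ (L - 1) * (K * N0) := mul_nonneg (by linarith) hKN
      linarith [hb.2]
    have h2 : (z / L) ^ 2 * (K * h2) ≤ (z / L) ^ 2 * (K * (L * ((1 + K) * N0))) :=
      mul_le_mul_of_nonneg_left (mul_le_mul_of_nonneg_left h1 hK) (by positivity)
    refine h2.trans (le_of_eq ?_)
    rw [hzL]
    generalize 1 / L = w at hLL
    linear_combination (z ^ 2 * w * (K * ((1 + K) * N0))) * hLL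
  have hG : z * ((m + 5) / (m + 4)) * φ - z * (1 / L) * ((m + 9) * (K * N0)) ≤
      (z / L) * ((m + 5) * g2 + 4 * κ) := by
    have h1 : L * ((m + 5) / (m + 4)) * φ - (m + 9) * (K * N0) ≤ (m + 5) * g2 + 4 * κ := by
      rw [he]
      have h2 : (m + 5) * (L * φ / (m + 4) + e) + 4 * κ = L * ((m + 5) / (m + 4)) * φ
        + ((m + 5) * e + 4 * κ) := by ring
      rw [h2]
      have h5 : (m + 5) * (-(K * N0)) ≤ (m + 5) * e :=
        mul_le_mul_of_nonneg_left he4 (by linarith)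
      linarith [hκ.1]
    have h3 := mul_le_mul_of_nonneg_left h1 hζ
    refine le_trans (le_of_eq ?_) h3
    rw [hzL]
    generalize 1 / L = w at hLL
    linear_combination (-(z * ((m + 5) / (m + 4)) * φ)) * hLL
  have hfin : (z * ((m + 5) / (m + 4)) - z ^ 2 * q) * φ
      - (z * (m + 9) * K + z ^ 2 * (1 + 13 * K + 3 * K ^ 2)) * (1 / L) * N0 =
      (z * ((m + 5) / (m + 4)) * φ - z * (1 / L) * ((m + 9) * (K * N0)))
      - (z ^ 2 * q * φ + z ^ 2 * (1 / L) * (N0 * (1 + 12 * K + 2 * K ^ 2)))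
      - z ^ 2 * (1 / L) * ((K + K ^ 2) * N0) := by ring
  rw [hfin]
  linarith only [hD3, hX2, hG]

end Vale.Agent.P207.H316
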