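import Vale.Agent.P207.H316.High3

/-!
# P207, block POS (assembly), the high frequency half: the theorem
-/

set_option linter.unusedSectionVars false

noncomputable section

namespace Vale.Agent.P207.H316

open Finset H442 H442.FrCalc

variable {n : ℕ} [NeZero n] {A : Type*} [CommRing A] [Algebra ℝ A] {C : FrCalc n A}
  {I : A →ₗ[ℝ] ℝ}

variable (C) in
/-- the test field -/
def yH (ζ : ℝ) (k : Fin n → Fin n → A) (i : Fin n) : A :=
  if i = 0 then 0 else (-ζ) • C.H i (k 0 0)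

theorem sq_sum_le (hp : PosInt I) {ι : Type*} [Fintype ι] (f : ι → A) :
    sq I (∑ c, f c) ≤ (Fintype.card ι : ℝ) * ∑ c, sq I (f c) := by
  have h1 : sq I (∑ c, f c) = ∑ c, ∑ d, I (f c * f d) := by
    unfold sq
    rw [Finset.sum_mul_sum, map_sum]
    exact Finset.sum_congr rfl fun c _ => by rw [map_sum]
  rw [h1]
  calc ∑ c, ∑ d, I (f c * f d) ≤ ∑ c, ∑ d, (1 / 2) * (sq I (f c) + sq I (f d)) :=
        Finset.sum_le_sum fun c _ => Finset.sum_le_sum fun d _ =>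
          (le_abs_self _).trans (hp.abs_I_le _ _)
    _ = _ := by
        simp only [← Finset.mul_sum, Finset.sum_add_distrib, Finset.sum_const, Finset.card_univ,
          nsmul_eq_mul]
        ring

/-- the bound of the zero order terms -/
theorem rr_le (hp : PosInt I) {B : ℝ} (hB : ∀ i j k l f, sq I (C.R i j k l * f) ≤ B * sq I f)
    (hB0 : 0 ≤ B) (k : Fin n → Fin n → A) :
    ∑ i, sq I (rr C k i) ≤ (n : ℝ) ^ 2 * B * n2 I k := by
  have h1 : ∀ i, sq I (rr C k i) ≤ n * (B * n2 I k) := by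
    intro i
    unfold rr
    refine (sq_sum_le hp _).trans ?_
    rw [Fintype.card_fin]
    refine mul_le_mul_of_nonneg_left ?_ (Nat.cast_nonneg n)
    calc ∑ c, sq I (C.R 0 i c 0 * k c 0) ≤ ∑ c, B * sq I (k c 0) :=
          Finset.sum_le_sum fun c _ => hB _ _ _ _ _
      _ = B * ∑ c, sq I (k c 0) := by rw [Finset.mul_sum]
      _ ≤ _ := mul_le_mul_of_nonneg_left (col_le hp k 0) hB0
  calc ∑ i, sq I (rr C k i) ≤ ∑ _i : Fin n, n * (B * n2 I k) :=
        Finset.sum_le_sum fun i _ => h1 i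
    _ = _ := by
        simp only [Finset.sum_const, Finset.card_univ, Fintype.card_fin, nsmul_eq_mul]
        ring

theorem kappa_le (hp : PosInt I) (k : Fin n → Fin n → A) :
    |2 * ∑ i, I (k i 0 * rr C k i)| ≤ n2 I k + ∑ i, sq I (rr C k i) := by
  rw [abs_mul, abs_of_pos (by norm_num : (0 : ℝ) < 2)]
  have h1 : |∑ i, I (k i 0 * rr C k i)| ≤ ∑ i, (1 / 2) * (sq I (k i 0) + sq I (rr C k i)) :=
    (Finset.abs_sum_le_sum_abs _ _).trans (Finset.sum_le_sum fun i _ => hp.abs_I_le _ _)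
  rw [← Finset.mul_sum, Finset.sum_add_distrib] at h1
  have h2 := col_le hp k 0
  linarith

theorem Qf_expand (k : Fin n → Fin n → A) (y : Fin n → A) :
    Kat.Qf C I k y = n * (2 * (∑ i, I (Kat.Zf C k i * y i)) - (∑ i, sq I (C.H 0 (y i)))
      - (∑ i, ∑ j, I (Kat.Kf C i j * y i * y j)) + (1 / 4) * sq I (k 0 0))
      + (1 / 4) * I ((∑ i, k i i) * ∑ i, k i i) - (1 / 2) * n2 I k := by
  unfold Kat.Qf Kat.Qint n2 sq
  simp only [map_add, map_sub, map_smul, map_sum, smul_eq_mul]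

/-- the pairing with the field `Z` -/
theorem Z_yH (hI : C.IsInt I) {k : Fin n → Fin n → A} (hk : C.T2 k) (hs : ∀ i j, k i j = k j i)
    (hd : ∀ j, ∑ i, C.H i (k i j) = 0) (ζ : ℝ) :
    2 * (∑ i, I (Kat.Zf C k i * yH C ζ k i)) = ζ * (((n : ℝ) + 5) * sq I (C.H 0 (k 0 0))
      + 4 * (2 * ∑ i, I (k i 0 * rr C k i))) := by
  have h1 : ∀ i, I (Kat.Zf C k i * yH C ζ k i) = if i = 0 then 0 else
      (-ζ) * (I (C.H 0 (k i 0) * C.H i (k 0 0)) - (1 / 2) * I (C.H i (k 0 0) * C.H i (k 0 0))) := by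
    intro i
    unfold Kat.Zf yH
    by_cases h : i = 0
    · rw [if_pos h, if_pos h, mul_zero, map_zero]
    · rw [if_neg h, if_neg h, mul_smul_comm, map_smul, sub_mul, smul_mul_assoc, map_sub, map_smul,
        hs 0 i]
      rfl
  simp only [h1]
  rw [sum_ne_zero, ← Finset.mul_sum, Finset.sum_sub_distrib, ← Finset.mul_sum]
  have h2 := id_P hI hk hs hd
  have h3 := id_S hI hk hs hd
  rw [h2] at h3 ⊢
  unfold sq
  have h4 : ∑ i, I (C.H i (k 0 0) * C.H i (k 0 0)) =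
      (n + 4) * I (C.H 0 (k 0 0) * C.H 0 (k 0 0)) + 2 * (2 * ∑ i, I (k i 0 * rr C k i)) := by
    linarith
  rw [h4]
  ring

/-- the norm of the test field -/
theorem sq_yH_le (hp : PosInt I) (k : Fin n → Fin n → A) (ζ : ℝ) :
    ∑ i, sq I (yH C ζ k i) ≤ ζ ^ 2 * ∑ i, sq I (C.H i (k 0 0)) := by
  rw [Finset.mul_sum]
  refine Finset.sum_le_sum fun i _ => ?_
  unfold yH
  by_cases h : i = 0
  · rw [if_pos h, sq_zero]
    exact mul_nonneg (sq_nonneg _) (hp.sq_nonneg _)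
  · rw [if_neg h, sq_smul, neg_sq]

theorem K_le (hp : PosInt I) {B : ℝ} (hB : ∀ i j k l f, sq I (C.R i j k l * f) ≤ B * sq I f)
    (y : Fin n → A) :
    ∑ i, ∑ j, I (Kat.Kf C i j * y i * y j) ≤ ((n : ℝ) / 2 * (B + 1)) * ∑ i, sq I (y i) := by
  have h1 : ∀ i j, I (Kat.Kf C i j * y i * y j) ≤ (1 / 2) * (B * sq I (y i) + sq I (y j)) := by
    intro i j
    have e1 : I (Kat.Kf C i j * y i * y j) = -I (C.R i 0 0 j * y i * y j) := by
      unfold Kat.Kf
      rw [neg_mul, neg_mul, map_neg]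
    rw [e1]
    have h2 := (neg_le_abs _).trans (hp.abs_I_le (C.R i 0 0 j * y i) (y j))
    have h3 := hB i 0 0 j (y i)
    linarith
  calc ∑ i, ∑ j, I (Kat.Kf C i j * y i * y j)
      ≤ ∑ i, ∑ j, (1 / 2) * (B * sq I (y i) + sq I (y j)) :=
        Finset.sum_le_sum fun i _ => Finset.sum_le_sum fun j _ => h1 i j
    _ = _ := by
        simp only [← Finset.mul_sum, Finset.sum_add_distrib, Finset.sum_const, Finset.card_univ,
          Fintype.card_fin, nsmul_eq_mul]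
        ring

/-- the flow derivative of the test field -/
theorem D_yH_le (hp : PosInt I) {k : Fin n → Fin n → A} (hk : C.T2 k)
    (hs : ∀ i j, k i j = k j i) (ζ : ℝ) {η : ℝ} (hη : 0 < η) :
    ∃ D : ℝ, ∑ i, sq I (C.H 0 (yH C ζ k i)) = ζ ^ 2 * D ∧
      D ≤ (1 + η) * ((∑ i, sq I (C.H i (C.H 0 (k 0 0)))) - sq I (C.H 0 (C.H 0 (k 0 0))))
        + (1 + 1 / η) * (4 * ∑ i, sq I (rr C k i)) := by
  refine ⟨∑ i, if i = 0 then 0 else sq I (C.H i (C.H 0 (k 0 0)) + (2 : ℝ) • rr C k i), ?_, ?_⟩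
  · rw [Finset.mul_sum]
    refine Finset.sum_congr rfl fun i _ => ?_
    unfold yH
    by_cases h : i = 0
    · rw [if_pos h, if_pos h, map_zero, sq_zero, mul_zero]
    · rw [if_neg h, if_neg h, (C.H 0).map_smul, sq_smul, neg_sq, comm_F hk hs]
  · have h1 : ∀ i, (if i = 0 then 0 else sq I (C.H i (C.H 0 (k 0 0)) + (2 : ℝ) • rr C k i)) ≤
        (1 + η) * (if i = 0 then 0 else sq I (C.H i (C.H 0 (k 0 0))))
          + (1 + 1 / η) * (4 * sq I (rr C k i)) := by
      intro i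
      by_cases h : i = 0
      · rw [if_pos h, if_pos h, mul_zero, zero_add]
        exact mul_nonneg (by positivity) (mul_nonneg (by norm_num) (hp.sq_nonneg _))
      · rw [if_neg h, if_neg h]
        have h2 := hp.sq_add_le' hη (C.H i (C.H 0 (k 0 0))) ((2 : ℝ) • rr C k i)
        rw [sq_smul] at h2
        norm_num at h2 ⊢
        exact h2
    calc ∑ i, (if i = 0 then 0 else sq I (C.H i (C.H 0 (k 0 0)) + (2 : ℝ) • rr C k i))
        ≤ ∑ i, ((1 + η) * (if i = 0 then 0 else sq I (C.H i (C.H 0 (k 0 0))))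
          + (1 + 1 / η) * (4 * sq I (rr C k i))) := Finset.sum_le_sum fun i _ => h1 i
      _ = _ := by
        rw [Finset.sum_add_distrib, ← Finset.mul_sum, ← Finset.mul_sum, ← Finset.mul_sum,
          sum_ne_zero]

/-- **the high frequency half of the positivity** -/
theorem high (hP : C.Par) (hI : C.IsInt I) (hp : PosInt I) :
    ∃ L0 c z Cy : ℝ, 1 ≤ L0 ∧ 0 < c ∧ 0 ≤ Cy ∧ ∀ (lam : ℝ), L0 ≤ lam →
      ∀ k : Fin n → Fin n → A, C.T2 k → (∀ i j, k i j = k j i) →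
        (∀ i j, C.cas (k i j) = (-lam) • k i j) → (∀ j, Kat.divf C k j = 0) →
        c * n2 I k ≤ Kat.Qf C I k (yH C (z / lam) k) ∧
        ∑ i, sq I (yH C (z / lam) k i) ≤ Cy * n2 I k := by
  obtain ⟨B1, hB1, hen⟩ := exists_energy hI hp
  choose B hB0 hB using fun q : Fin n × Fin n × Fin n × Fin n =>
    hp.bd (C.R q.1 q.2.1 q.2.2.1 q.2.2.2)
  obtain ⟨B2, hB2, hR⟩ : ∃ B2 : ℝ, 0 ≤ B2 ∧
      ∀ i j k l f, sq I (C.R i j k l * f) ≤ B2 * sq I f := by
    refine ⟨∑ q, B q, Finset.sum_nonneg fun q _ => hB0 q, fun i j k l f => ?_⟩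
    refine (hB (i, j, k, l) f).trans (mul_le_mul_of_nonneg_right ?_ (hp.sq_nonneg f))
    exact Finset.single_le_sum (f := B) (fun q _ => hB0 q) (mem_univ _)
  set m : ℝ := (n : ℝ) with hm
  have hm1 : 1 ≤ m := by
    rw [hm]
    exact_mod_cast Nat.one_le_iff_ne_zero.2 (NeZero.ne n)
  have hm0 : 0 ≤ m := by linarith
  set z : ℝ := (m + 4) * (m + 5) / (2 * (m + 3)) with hz
  have hz0 : 0 ≤ z := by positivity
  set K : ℝ := B1 * (m ^ 2 * 40) + B1 * (16 * m ^ 4) + (1 + m ^ 2 * B2)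
    + m / 2 * (B2 + 1) with hK
  have hK0 : 0 ≤ K := by positivity
  have hKb1 : B1 * (m ^ 2 * 16) ≤ K := by
    have h1 : 0 ≤ B1 * (m ^ 2 * 24) := by positivity
    have h2 : 0 ≤ B1 * (16 * m ^ 4) := by positivity
    have h3 : 0 ≤ m ^ 2 * B2 := by positivity
    have h4 : 0 ≤ m / 2 * (B2 + 1) := by positivity
    rw [hK]; linarith
  have hKb2 : B1 * (m ^ 2 * 40) ≤ K := by
    have h2 : 0 ≤ B1 * (16 * m ^ 4) := by positivity
    have h3 : 0 ≤ m ^ 2 * B2 := by positivity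
    have h4 : 0 ≤ m / 2 * (B2 + 1) := by positivity
    rw [hK]; linarith
  have hKb3 : B1 * (16 * m ^ 4) ≤ K := by
    have h2 : 0 ≤ B1 * (m ^ 2 * 40) := by positivity
    have h3 : 0 ≤ m ^ 2 * B2 := by positivity
    have h4 : 0 ≤ m / 2 * (B2 + 1) := by positivity
    rw [hK]; linarith
  have hKb4 : 1 + m ^ 2 * B2 ≤ K := by
    have h1 : 0 ≤ B1 * (m ^ 2 * 40) := by positivity
    have h2 : 0 ≤ B1 * (16 * m ^ 4) := by positivity
    have h4 : 0 ≤ m / 2 * (B2 + 1) := by positivity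
    rw [hK]; linarith
  have hKb5 : m / 2 * (B2 + 1) ≤ K := by
    have h1 : 0 ≤ B1 * (m ^ 2 * 40) := by positivity
    have h2 : 0 ≤ B1 * (16 * m ^ 4) := by positivity
    have h3 : 0 ≤ m ^ 2 * B2 := by positivity
    rw [hK]; linarith
  clear_value K
  set K' : ℝ := z * (m + 9) * K + z ^ 2 * (1 + 13 * K + 3 * K ^ 2) with hK'
  have hK'0 : 0 ≤ K' := by positivity
  set c0 : ℝ := (3 * m + 11) / ((m + 2) * (m + 3)) with hc0
  have hc0p : 0 < c0 := by positivity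
  refine ⟨1 + 2 * (m * K') / c0, c0 / 2, z, z ^ 2 * (1 + K), ?_, by positivity, by positivity, ?_⟩
  · have : 0 ≤ 2 * (m * K') / c0 := by positivity
    linarith
  intro lam hlam k hk hs hcas hdiv
  have hlam1 : 1 ≤ lam := by
    have : 0 ≤ 2 * (m * K') / c0 := by positivity
    linarith
  have hlam0 : 0 < lam := by linarith
  have hd : ∀ j, ∑ i, C.H i (k i j) = 0 := hdiv
  set N0 : ℝ := n2 I k with hN0
  have hN : 0 ≤ N0 := n2_nonneg hp k
  set φ : ℝ := sq I (k 0 0) with hφd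
  have hφ0 : 0 ≤ φ := hp.sq_nonneg _
  have hφ : φ ≤ N0 := entry_le hp k 0 0
  set g2 : ℝ := sq I (C.H 0 (k 0 0)) with hg2
  set h2 : ℝ := ∑ i, sq I (C.H i (k 0 0)) with hh2
  set κ : ℝ := 2 * ∑ i, I (k i 0 * rr C k i) with hκd
  set ρ : ℝ := ∑ i, sq I (rr C k i) with hρd
  have hρ0 : ρ ≤ m ^ 2 * B2 * N0 := rr_le hp hR hB2 k
  have hρ : ρ ≤ K * N0 := by
    refine hρ0.trans (mul_le_mul_of_nonneg_right ?_ hN)
    linarith
  have hκ : |κ| ≤ K * N0 := by
    refine (kappa_le hp k).trans ?_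
    rw [← hρd, ← hN0]
    have h1 : (1 + m ^ 2 * B2) * N0 ≤ K * N0 := mul_le_mul_of_nonneg_right hKb4 hN
    linarith
  have hb : |h2 - lam * φ| ≤ K * N0 := by
    refine (hen (k 0 0) lam (hcas 0 0)).trans ?_
    refine (mul_le_mul_of_nonneg_left (sum_sq_V2_le hp hk 0 0) hB1).trans ?_
    have h1 : B1 * (m ^ 2 * 16) * N0 ≤ K * N0 := mul_le_mul_of_nonneg_right hKb1 hN
    rw [← hm, ← hN0]
    linarith
  have hc : h2 = (m + 4) * g2 + 2 * κ := by
    have e1 := id_P hI hk hs hd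
    have e2 := id_S hI hk hs hd
    rw [e1] at e2
    have e3 : h2 = ∑ i, I (C.H i (k 0 0) * C.H i (k 0 0)) := rfl
    have e4 : g2 = I (C.H 0 (k 0 0) * C.H 0 (k 0 0)) := rfl
    rw [e3, e4]
    linarith
  -- the energy of `∇ k`
  have hn3 : n3 I (fun i j l => C.H i (k j l)) ≤ lam * N0 + B1 * (16 * m ^ 4) * N0 := by
    have e1 : n3 I (fun i j l => C.H i (k j l)) = ∑ j, ∑ l, ∑ i, sq I (C.H i (k j l)) := by
      unfold n3
      rw [Finset.sum_comm]
      exact Finset.sum_congr rfl fun j _ => Finset.sum_comm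
    have e2 : ∀ j l, ∑ i, sq I (C.H i (k j l)) ≤ lam * sq I (k j l)
        + B1 * (m ^ 2 * (16 * N0)) := by
      intro j l
      have h1 := (le_abs_self _).trans ((hen (k j l) lam (hcas j l)).trans
        (mul_le_mul_of_nonneg_left (sum_sq_V2_le hp hk j l) hB1))
      rw [← hm, ← hN0] at h1
      linarith
    rw [e1]
    calc ∑ j, ∑ l, ∑ i, sq I (C.H i (k j l)) ≤ ∑ j, ∑ l, (lam * sq I (k j l)
          + B1 * (m ^ 2 * (16 * N0))) :=
          Finset.sum_le_sum fun j _ => Finset.sum_le_sum fun l _ => e2 j l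
      _ = _ := by
        simp only [Finset.sum_add_distrib, ← Finset.mul_sum, Finset.sum_const, Finset.card_univ,
          Fintype.card_fin, nsmul_eq_mul]
        rw [hN0, n2, ← hm]
        ring
  have hcasG : C.cas (C.H 0 (k 0 0)) = (-lam) • C.H 0 (k 0 0) := by
    rw [← H_cas hP, hcas, (C.H 0).map_smul]
  have hA : ∑ i, sq I (C.H i (C.H 0 (k 0 0))) ≤ lam * g2 + K * (lam + K) * N0 := by
    have h1 := (le_abs_self _).trans ((hen (C.H 0 (k 0 0)) lam hcasG).trans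
      (mul_le_mul_of_nonneg_left (sum_sq_V3_le hp hk.nabla 0 0 0) hB1))
    rw [← hm] at h1
    have h2 : B1 * (m ^ 2 * (40 * n3 I (fun i j l => C.H i (k j l)))) ≤
        K * (lam * N0 + K * N0) := by
      have h3 : B1 * (m ^ 2 * (40 * n3 I (fun i j l => C.H i (k j l)))) ≤
          B1 * (m ^ 2 * 40) * (lam * N0 + K * N0) := by
        have h4 : n3 I (fun i j l => C.H i (k j l)) ≤ lam * N0 + K * N0 :=
          hn3.trans (by
            have := mul_le_mul_of_nonneg_right hKb3 hN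
            linarith)
        have h5 := mul_le_mul_of_nonneg_left h4 (by positivity : 0 ≤ B1 * (m ^ 2 * 40))
        linarith
      exact h3.trans (mul_le_mul_of_nonneg_right hKb2 (by positivity))
    have h6 : K * (lam + K) * N0 = K * (lam * N0 + K * N0) := by ring
    rw [h6]
    linarith
  have hBB : 2 * (lam / (m + 4)) * g2 - (lam / (m + 4)) ^ 2 * φ ≤
      sq I (C.H 0 (C.H 0 (k 0 0))) := by
    have h1 := hp.young (-(lam / (m + 4))) (k 0 0) (C.H 0 (C.H 0 (k 0 0)))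
    rw [hI.mul_H 0 (k 0 0) (C.H 0 (k 0 0)), neg_sq] at h1
    have e4 : g2 = I (C.H 0 (k 0 0) * C.H 0 (k 0 0)) := rfl
    rw [e4]
    rw [← hφd] at h1
    linarith
  obtain ⟨D, hD1, hD2⟩ := D_yH_le (C := C) (I := I) hp hk hs (z / lam) (η := 1 / lam)
    (by positivity)
  rw [one_div_one_div, ← hρd] at hD2
  have hX : ∑ i, ∑ j, I (Kat.Kf C i j * yH C (z / lam) k i * yH C (z / lam) k j) ≤
      (z / lam) ^ 2 * (K * h2) := by
    refine (K_le hp hR _).trans ?_
    rw [← hm]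
    have h1 := sq_yH_le (C := C) (I := I) hp k (z / lam)
    rw [← hh2] at h1
    have hh0 : 0 ≤ h2 := Finset.sum_nonneg fun i _ => hp.sq_nonneg _
    calc m / 2 * (B2 + 1) * ∑ i, sq I (yH C (z / lam) k i) ≤
          m / 2 * (B2 + 1) * ((z / lam) ^ 2 * h2) :=
          mul_le_mul_of_nonneg_left h1 (by positivity)
      _ ≤ K * ((z / lam) ^ 2 * h2) := mul_le_mul_of_nonneg_right hKb5 (by positivity)
      _ = _ := by ring
  have hT : 0 ≤ I ((∑ i, k i i) * ∑ i, k i i) := hp.pos _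
  have hid := id_k hI hk hs
  rw [← hm, ← hφd, ← hN0] at hid
  constructor
  · rw [Qf_expand, Z_yH hI hk hs hd, hD1, ← hm, ← hN0, ← hφd, ← hg2, ← hκd]
    have hreal := real_high hm1 hz0 hlam1 hK0 hN hφ0 hφ hb (q := (m + 3) / (m + 4) ^ 2) rfl hc hκ
      hρ hD2 hA hBB hX
    rw [← hK'] at hreal
    generalize ∑ i, ∑ j, I (Kat.Kf C i j * yH C (z / lam) k i * yH C (z / lam) k j) = X at hreal ⊢
    generalize I ((∑ i, k i i) * ∑ i, k i i) = T at hT hid ⊢
    have hzz : z * ((m + 5) / (m + 4)) - z ^ 2 * ((m + 3) / (m + 4) ^ 2) =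
        (m + 5) ^ 2 / (4 * (m + 3)) := by
      rw [hz]; field_simp; ring
    rw [hzz] at hreal
    have hmain : m * ((m + 5) ^ 2 / (4 * (m + 3)) * φ - K' * (1 / lam) * N0 + 1 / 4 * φ)
        + 1 / 4 * T - 1 / 2 * N0 ≤
        m * (z / lam * ((m + 5) * g2 + 4 * κ) - (z / lam) ^ 2 * D - X + 1 / 4 * φ)
        + 1 / 4 * T - 1 / 2 * N0 := by
      have := mul_le_mul_of_nonneg_left hreal hm0
      linarith
    refine le_trans ?_ hmain
    have hφ2 : m * φ = (2 * N0 + T) / (m + 2) := by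
      rw [eq_div_iff (by positivity)]
      linarith
    have e1 : m * ((m + 5) ^ 2 / (4 * (m + 3)) * φ - K' * (1 / lam) * N0 + 1 / 4 * φ)
        + 1 / 4 * T - 1 / 2 * N0 = ((m + 5) ^ 2 / (4 * (m + 3)) + 1 / 4) * (m * φ)
        + 1 / 4 * T - 1 / 2 * N0 - m * K' * (1 / lam) * N0 := by ring
    rw [e1, hφ2]
    have e2 : ((m + 5) ^ 2 / (4 * (m + 3)) + 1 / 4) * ((2 * N0 + T) / (m + 2))
        + 1 / 4 * T - 1 / 2 * N0 = c0 * N0
        + (((m + 5) ^ 2 / (4 * (m + 3)) + 1 / 4) / (m + 2) + 1 / 4) * T := by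
      rw [hc0]; field_simp; ring
    rw [e2]
    have e3 : 0 ≤ (((m + 5) ^ 2 / (4 * (m + 3)) + 1 / 4) / (m + 2) + 1 / 4) * T :=
      mul_nonneg (by positivity) hT
    have e4 : m * K' * (1 / lam) * N0 ≤ c0 / 2 * N0 := by
      refine mul_le_mul_of_nonneg_right ?_ hN
      rw [mul_one_div, div_le_iff₀ hlam0]
      have h6 : 2 * (m * K') / c0 ≤ lam := by linarith
      rw [div_le_iff₀ hc0p] at h6
      linarith
    linarith
  · refine (sq_yH_le (C := C) (I := I) hp k (z / lam)).trans ?_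
    rw [← hh2]
    rw [_root_.abs_le] at hb
    have h1 : h2 ≤ lam * ((1 + K) * N0) := by
      have h3 : lam * φ ≤ lam * N0 := mul_le_mul_of_nonneg_left hφ hlam0.le
      have h4 : 0 ≤ (lam - 1) * (K * N0) := mul_nonneg (by linarith) (by positivity)
      linarith [hb.2]
    have h7 : (z / lam) ^ 2 * h2 ≤ (z / lam) ^ 2 * (lam * ((1 + K) * N0)) :=
      mul_le_mul_of_nonneg_left h1 (by positivity)
    refine h7.trans ?_
    have h8 : (z / lam) ^ 2 * (lam * ((1 + K) * N0)) = z ^ 2 * (1 + K) * N0 * (1 / lam) := by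
      field_simp
    rw [h8]
    have h9 : 1 / lam ≤ 1 := by rw [div_le_one hlam0]; exact hlam1
    calc z ^ 2 * (1 + K) * N0 * (1 / lam) ≤ z ^ 2 * (1 + K) * N0 * 1 :=
          mul_le_mul_of_nonneg_left h9 (by positivity)
      _ = _ := by ring

theorem cas_yH (hP : C.Par) {k : Fin n → Fin n → A} {lam : ℝ}
    (hcas : ∀ i j, C.cas (k i j) = (-lam) • k i j) (ζ : ℝ) (i : Fin n) :
    C.cas (yH C ζ k i) = (-lam) • yH C ζ k i := by
  unfold yH
  by_cases h : i = 0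
  · rw [if_pos h, cas_zero, smul_zero]
  · rw [if_neg h, cas_smul, ← H_cas hP, hcas, (C.H i).map_smul, smul_comm]

theorem yH_zero (ζ : ℝ) (k : Fin n → Fin n → A) : yH C ζ k 0 = 0 := if_pos rfl

end Vale.Agent.P207.H316
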